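import Mathlib

/-!
# Abstract Sobolev calculus on a compact manifold with a measure preserving frame

`A` = smooth functions, `X a` = the fields of a global frame (divergence free), `I` = the integral,
`p` = the sup norm.  `E s u = ∑_{|J| ≤ s} I ((X_J u)^2)` (with multiplicities), `n s u = √(E s u)`.
-/

namespace Vale.Agent.P207.H832

open Finset

variable {A κ : Type*} [CommRing A] [Algebra ℝ A] [Fintype κ]

/-- the bilinear forms -/
def BF (X : κ → A →ₗ[ℝ] A) (I : A →ₗ[ℝ] ℝ) : ℕ → A → A → ℝ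
  | 0, u, v => I (u * v)
  | s + 1, u, v => BF X I s u v + ∑ a, BF X I s (X a u) (X a v)

/-- Sobolev calculus -/
structure Cal (A κ : Type*) [CommRing A] [Algebra ℝ A] [Fintype κ] where
  /-- the frame -/
  X : κ → A →ₗ[ℝ] A
  leib : ∀ a u v, X a (u * v) = X a u * v + u * X a v
  /-- the integral -/
  I : A →ₗ[ℝ] ℝ
  I_sq : ∀ u, 0 ≤ I (u * u)
  I_X : ∀ a u, I (X a u) = 0
  /-- the sup norm -/
  p : A → ℝ
  p_nonneg : ∀ u, 0 ≤ p u
  I_mul : ∀ u v, I ((u * v) * (u * v)) ≤ p u ^ 2 * I (v * v)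
  /-- structure functions -/
  c : κ → κ → κ → A
  comm : ∀ a b u, X a (X b u) - X b (X a u) = ∑ k, c a b k * X k u
  /-- Sobolev order -/
  D : ℕ
  /-- Sobolev constant -/
  CS : ℝ
  CS_nonneg : 0 ≤ CS
  sob : ∀ u, p u ^ 2 ≤ CS ^ 2 * BF X I D u u

namespace Cal

variable (S : Cal A κ)

/-- the bilinear form of order `s` -/
def B (s : ℕ) (u v : A) : ℝ := BF S.X S.I s u v

/-- the energy of order `s` -/
def E (s : ℕ) (u : A) : ℝ := S.B s u u

/-- the Sobolev seminorm of order `s` -/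
noncomputable def n (s : ℕ) (u : A) : ℝ := √(S.E s u)

theorem B_zero (u v : A) : S.B 0 u v = S.I (u * v) := rfl

theorem B_succ (s : ℕ) (u v : A) : S.B (s + 1) u v = S.B s u v + ∑ a, S.B s (S.X a u) (S.X a v) :=
  rfl

theorem E_zero (u : A) : S.E 0 u = S.I (u * u) := rfl

theorem E_succ (s : ℕ) (u : A) : S.E (s + 1) u = S.E s u + ∑ a, S.E s (S.X a u) :=
  rfl

theorem B_comm (s : ℕ) (u v : A) : S.B s u v = S.B s v u := by
  induction s generalizing u v with
  | zero => rw [B_zero, B_zero, mul_comm]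
  | succ s ih =>
    rw [B_succ, B_succ, ih u v]
    congr 1
    exact Finset.sum_congr rfl fun a _ => ih _ _

theorem B_add_left (s : ℕ) (u u' v : A) : S.B s (u + u') v = S.B s u v + S.B s u' v := by
  induction s generalizing u u' v with
  | zero => rw [B_zero, B_zero, B_zero, add_mul, map_add]
  | succ s ih =>
    rw [B_succ, B_succ, B_succ, ih u u' v]
    have : ∑ a, S.B s (S.X a (u + u')) (S.X a v)
        = ∑ a, S.B s (S.X a u) (S.X a v) + ∑ a, S.B s (S.X a u') (S.X a v) := by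
      rw [← Finset.sum_add_distrib]
      refine Finset.sum_congr rfl fun a _ => ?_
      rw [map_add, ih]
    rw [this]
    ring

theorem B_smul_left (s : ℕ) (r : ℝ) (u v : A) : S.B s (r • u) v = r * S.B s u v := by
  induction s generalizing u v with
  | zero => rw [B_zero, B_zero, smul_mul_assoc, map_smul, smul_eq_mul]
  | succ s ih =>
    rw [B_succ, B_succ, ih u v, mul_add, Finset.mul_sum]
    congr 1
    refine Finset.sum_congr rfl fun a _ => ?_
    rw [map_smul, ih]

theorem B_add_right (s : ℕ) (u v v' : A) : S.B s u (v + v') = S.B s u v + S.B s u v' := by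
  rw [B_comm, B_add_left, S.B_comm s v, S.B_comm s v']

theorem B_smul_right (s : ℕ) (r : ℝ) (u v : A) : S.B s u (r • v) = r * S.B s u v := by
  rw [B_comm, B_smul_left, B_comm]

theorem B_zero_left (s : ℕ) (v : A) : S.B s 0 v = 0 := by
  have := S.B_smul_left s 0 0 v
  simpa using this

theorem B_zero_right (s : ℕ) (v : A) : S.B s v 0 = 0 := by
  rw [B_comm, B_zero_left]

theorem B_sum_left {ι : Type*} (T : Finset ι) (s : ℕ) (u : ι → A) (v : A) :
    S.B s (∑ i ∈ T, u i) v = ∑ i ∈ T, S.B s (u i) v := by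
  classical
  induction T using Finset.induction_on with
  | empty => simp [B_zero_left]
  | insert i T hi ih => rw [Finset.sum_insert hi, Finset.sum_insert hi, B_add_left, ih]

theorem B_sum_right {ι : Type*} (T : Finset ι) (s : ℕ) (v : A) (u : ι → A) :
    S.B s v (∑ i ∈ T, u i) = ∑ i ∈ T, S.B s v (u i) := by
  rw [B_comm, B_sum_left]
  exact Finset.sum_congr rfl fun i _ => S.B_comm _ _ _

theorem E_nonneg (s : ℕ) (u : A) : 0 ≤ S.E s u := by
  induction s generalizing u with
  | zero => exact S.I_sq u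
  | succ s ih =>
    rw [E_succ]
    exact add_nonneg (ih u) (Finset.sum_nonneg fun a _ => ih _)

theorem E_add (s : ℕ) (u v : A) : S.E s (u + v) = S.E s u + 2 * S.B s u v + S.E s v := by
  unfold E
  rw [B_add_left, B_add_right, B_add_right, S.B_comm s v u]
  ring

theorem E_smul (s : ℕ) (r : ℝ) (u : A) : S.E s (r • u) = r ^ 2 * S.E s u := by
  unfold E
  rw [B_smul_left, B_smul_right]
  ring

/-- Cauchy-Schwarz -/
theorem B_sq_le (s : ℕ) (u v : A) : S.B s u v ^ 2 ≤ S.E s u * S.E s v := by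
  have h : ∀ r : ℝ, 0 ≤ S.E s v * (r * r) + 2 * S.B s u v * r + S.E s u := by
    intro r
    have := S.E_nonneg s (u + r • v)
    rw [E_add, B_smul_right, E_smul] at this
    nlinarith [this]
  have := discrim_le_zero h
  unfold discrim at this
  nlinarith [this]

theorem n_nonneg (s : ℕ) (u : A) : 0 ≤ S.n s u := Real.sqrt_nonneg _

theorem n_sq (s : ℕ) (u : A) : S.n s u ^ 2 = S.E s u := Real.sq_sqrt (S.E_nonneg s u)

theorem abs_B_le (s : ℕ) (u v : A) : |S.B s u v| ≤ S.n s u * S.n s v := by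
  apply abs_le_of_sq_le_sq _ (mul_nonneg (S.n_nonneg s u) (S.n_nonneg s v))
  rw [mul_pow, n_sq, n_sq]
  exact S.B_sq_le s u v

theorem n_add_le (s : ℕ) (u v : A) : S.n s (u + v) ≤ S.n s u + S.n s v := by
  have h0 := S.n_nonneg s u
  have h1 := S.n_nonneg s v
  refine abs_le_of_sq_le_sq' ?_ (by positivity) |>.2
  rw [n_sq, E_add, ← n_sq, ← n_sq]
  have := (le_abs_self _).trans (S.abs_B_le s u v)
  nlinarith [this]

theorem n_smul (s : ℕ) (r : ℝ) (u : A) : S.n s (r • u) = |r| * S.n s u := by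
  unfold n
  rw [E_smul, Real.sqrt_mul (sq_nonneg r), Real.sqrt_sq_eq_abs]

theorem n_zero (s : ℕ) : S.n s (0 : A) = 0 := by
  have := S.n_smul s 0 0
  simpa using this

theorem n_neg (s : ℕ) (u : A) : S.n s (-u) = S.n s u := by
  have := S.n_smul s (-1) u
  simpa using this

theorem n_sub_le (s : ℕ) (u v : A) : S.n s (u - v) ≤ S.n s u + S.n s v := by
  rw [sub_eq_add_neg]
  exact (S.n_add_le s u (-v)).trans (by rw [n_neg])

theorem n_sum_le {ι : Type*} (T : Finset ι) (s : ℕ) (u : ι → A) :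
    S.n s (∑ i ∈ T, u i) ≤ ∑ i ∈ T, S.n s (u i) := by
  classical
  induction T using Finset.induction_on with
  | empty => simp [n_zero]
  | insert i T hi ih =>
    rw [Finset.sum_insert hi, Finset.sum_insert hi]
    exact (S.n_add_le _ _ _).trans (by gcongr)

theorem n_sq_succ (s : ℕ) (u : A) :
    S.n (s + 1) u ^ 2 = S.n s u ^ 2 + ∑ a, S.n s (S.X a u) ^ 2 := by
  rw [n_sq, n_sq, E_succ]
  congr 1
  exact Finset.sum_congr rfl fun a _ => (S.n_sq _ _).symm

theorem n_le_succ (s : ℕ) (u : A) : S.n s u ≤ S.n (s + 1) u := by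
  refine abs_le_of_sq_le_sq' ?_ (S.n_nonneg _ _) |>.2
  rw [n_sq_succ]
  have : 0 ≤ ∑ a, S.n s (S.X a u) ^ 2 := Finset.sum_nonneg fun a _ => sq_nonneg _
  linarith

theorem n_mono {s t : ℕ} (h : s ≤ t) (u : A) : S.n s u ≤ S.n t u := by
  induction h with
  | refl => exact le_refl _
  | step _ ih => exact ih.trans (S.n_le_succ _ u)

theorem n_X_le (s : ℕ) (a : κ) (u : A) : S.n s (S.X a u) ≤ S.n (s + 1) u := by
  refine abs_le_of_sq_le_sq' ?_ (S.n_nonneg _ _) |>.2
  rw [n_sq_succ]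
  have h1 : S.n s (S.X a u) ^ 2 ≤ ∑ a, S.n s (S.X a u) ^ 2 :=
    Finset.single_le_sum (f := fun a => S.n s (S.X a u) ^ 2) (fun a _ => sq_nonneg _)
      (Finset.mem_univ a)
  have h2 := sq_nonneg (S.n s u)
  linarith

theorem n_succ_le (s : ℕ) (u : A) :
    S.n (s + 1) u ≤ S.n s u + ∑ a, S.n s (S.X a u) := by
  have h0 := S.n_nonneg s u
  have h1 : 0 ≤ ∑ a, S.n s (S.X a u) := Finset.sum_nonneg fun a _ => S.n_nonneg _ _
  refine abs_le_of_sq_le_sq' ?_ (by positivity) |>.2
  rw [n_sq_succ]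
  have h2 : ∑ a, S.n s (S.X a u) ^ 2 ≤ (∑ a, S.n s (S.X a u)) ^ 2 := by
    rw [sq (∑ a, S.n s (S.X a u)), Finset.sum_mul]
    refine Finset.sum_le_sum fun a _ => ?_
    rw [sq]
    have := S.n_nonneg s (S.X a u)
    gcongr
    exact Finset.single_le_sum (f := fun a => S.n s (S.X a u)) (fun a _ => S.n_nonneg _ _)
      (Finset.mem_univ a)
  nlinarith [mul_nonneg h0 h1]

/-- log-convexity -/
theorem n_log_convex (s : ℕ) (u : A) :
    S.n (s + 1) u ^ 2 ≤ ((1 : ℝ) + Fintype.card κ) ^ (s + 1) * (S.n s u * S.n (s + 2) u) := by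
  set K : ℝ := 1 + Fintype.card κ with hK
  have hK1 : 1 ≤ K := by
    have : (0 : ℝ) ≤ Fintype.card κ := Nat.cast_nonneg _
    linarith
  induction s generalizing u with
  | zero =>
    have h1 : ∀ a, S.n 0 (S.X a u) ^ 2 ≤ S.n 0 u * S.n 2 u := by
      intro a
      have e1 : S.n 0 (S.X a u) ^ 2 = - S.B 0 u (S.X a (S.X a u)) := by
        rw [n_sq, E_zero, B_zero]
        have := S.I_X a (u * S.X a u)
        rw [S.leib, map_add] at this
        linarith
      rw [e1]
      refine (neg_le_abs _).trans ((S.abs_B_le 0 u _).trans ?_)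
      gcongr
      · exact S.n_nonneg _ _
      · exact (S.n_X_le 0 a _).trans (S.n_X_le 1 a u)
    have h0 : S.n 0 u ^ 2 ≤ S.n 0 u * S.n 2 u := by
      rw [sq]
      have := S.n_nonneg 0 u
      gcongr
      exact S.n_mono (by norm_num) u
    rw [n_sq_succ]
    calc S.n 0 u ^ 2 + ∑ a, S.n 0 (S.X a u) ^ 2
        ≤ S.n 0 u * S.n 2 u + ∑ _a : κ, S.n 0 u * S.n 2 u := by
          gcongr with a
          exact h1 a
      _ = K ^ (0 + 1) * (S.n 0 u * S.n (0 + 2) u) := by
          rw [Finset.sum_const, Finset.card_univ, nsmul_eq_mul, hK]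
          ring
  | succ s ih =>
    rw [n_sq_succ]
    have h1 : ∀ a, S.n (s + 1) (S.X a u) ^ 2 ≤ K ^ (s + 1) * (S.n (s + 1) u * S.n (s + 3) u) := by
      intro a
      refine (ih (S.X a u)).trans ?_
      have := S.n_nonneg s (S.X a u)
      have := S.n_nonneg (s+1) u
      have := S.n_nonneg (s+2) (S.X a u)
      gcongr
      · exact S.n_X_le _ _ _
      · exact S.n_X_le _ _ _
    have h0 : S.n (s + 1) u ^ 2 ≤ K ^ (s + 1) * (S.n (s + 1) u * S.n (s + 3) u) := by
      refine (ih u).trans ?_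
      have := S.n_nonneg s u
      have := S.n_nonneg (s+1) u
      have := S.n_nonneg (s+2) u
      gcongr
      · exact S.n_le_succ _ _
      · exact S.n_le_succ _ _
    calc S.n (s + 1) u ^ 2 + ∑ a, S.n (s + 1) (S.X a u) ^ 2
        ≤ K ^ (s + 1) * (S.n (s + 1) u * S.n (s + 3) u)
          + ∑ _a : κ, K ^ (s + 1) * (S.n (s + 1) u * S.n (s + 3) u) := by
          gcongr with a
          exact h1 a
      _ = K ^ (s + 1 + 1) * (S.n (s + 1) u * S.n (s + 1 + 2) u) := by
          rw [Finset.sum_const, Finset.card_univ, nsmul_eq_mul, hK]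
          ring

end Cal

end Vale.Agent.P207.H832
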