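import Vale.Agent.P207.H832.Inst

/-!
# Jointly smooth families are differentiable curves in all Sobolev norms
-/

open MeasureTheory Filter Topology Asymptotics

noncomputable section

set_option linter.unusedSectionVars false

namespace Vale.Agent.P207.H832

open H395 H571

variable {ι : Type} [Fintype ι] {N : Type} [TopologicalSpace N] [CompactSpace N]
  [MeasurableSpace N] {μ : Measure N}

/-- a set of jointly smooth families of smooth functions -/
structure JS (S : NSys ι N μ) (𝒮 : Set (ℝ → S.A)) : Prop where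
  cont : ∀ F ∈ 𝒮, Continuous fun q : ℝ × N => (F q.1 : C(N, ℝ)) q.2
  X : ∀ F ∈ 𝒮, ∀ a, (fun t => S.X a (F t)) ∈ 𝒮
  dt : ∀ F ∈ 𝒮, ∃ F' ∈ 𝒮, ∀ t p, HasDerivAt (fun t => (F t : C(N, ℝ)) p) ((F' t : C(N, ℝ)) p) t

variable (S : NSys ι N μ)

/-- integration along a flow line, as a functional -/
def lineInt (a : ι) (s : ℝ) (p : N) : C(N, ℝ) →L[ℝ] ℝ :=
  LinearMap.mkContinuous
    { toFun := fun f => ∫ σ in (0 : ℝ)..s, f (S.Φ a σ p)
      map_add' := fun f g => by
        simp only [ContinuousMap.add_apply]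
        refine intervalIntegral.integral_add ?_ ?_
        · exact (f.continuous.comp ((S.cont a).comp
            (continuous_id.prodMk continuous_const))).intervalIntegrable _ _
        · exact (g.continuous.comp ((S.cont a).comp
            (continuous_id.prodMk continuous_const))).intervalIntegrable _ _
      map_smul' := fun r f => by
        simp only [ContinuousMap.smul_apply, smul_eq_mul, RingHom.id_apply]
        exact intervalIntegral.integral_const_mul _ _ } |s| fun f => by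
      simp only [LinearMap.coe_mk, AddHom.coe_mk]
      have := intervalIntegral.norm_integral_le_of_norm_le_const (a := (0 : ℝ)) (b := s)
        (f := fun σ => f (S.Φ a σ p)) (C := ‖f‖) fun σ _ => f.norm_coe_le_norm _
      rw [sub_zero] at this
      linarith [mul_comm ‖f‖ |s|]

theorem lineInt_apply (a : ι) (s : ℝ) (p : N) (f : C(N, ℝ)) :
    lineInt S a s p f = ∫ σ in (0 : ℝ)..s, f (S.Φ a σ p) := rfl

theorem flow_ftc (a : ι) (f : S.A) (s : ℝ) (p : N) :
    (f : C(N, ℝ)) (S.Φ a s p) - (f : C(N, ℝ)) p = lineInt S a s p (S.X a f : C(N, ℝ)) := by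
  rw [lineInt_apply]
  have := intervalIntegral.integral_eq_sub_of_hasDerivAt (a := (0 : ℝ)) (b := s)
    (f := fun σ => (f : C(N, ℝ)) (S.Φ a σ p)) (f' := fun σ => (S.X a f : C(N, ℝ)) (S.Φ a σ p))
    (fun σ _ => hasDerivAt_flow S a f p σ)
    (((S.X a f : C(N, ℝ)).continuous.comp ((S.cont a).comp
            (continuous_id.prodMk continuous_const))).intervalIntegrable _ _)
  rw [this, S.zero]

variable {S} {𝒮 : Set (ℝ → S.A)}

theorem JS.curve (h : JS S 𝒮) {F F' : ℝ → S.A} (hF' : F' ∈ 𝒮)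
    (hd : ∀ t p, HasDerivAt (fun t => (F t : C(N, ℝ)) p) ((F' t : C(N, ℝ)) p) t) (t : ℝ) :
    HasDerivAt (fun t => (F t : C(N, ℝ))) (F' t : C(N, ℝ)) t :=
  hasDerivAt_curve (F := fun t => (F t : C(N, ℝ))) (G := fun t => (F' t : C(N, ℝ)))
    (continuous_curry (F := fun t => (F' t : C(N, ℝ))) (h.cont F' hF')) hd t

/-- the derivations commute with the time derivative -/
theorem JS.comm (h : JS S 𝒮) {F F' : ℝ → S.A} (hF : F ∈ 𝒮) (hF' : F' ∈ 𝒮)
    (hd : ∀ t p, HasDerivAt (fun t => (F t : C(N, ℝ)) p) ((F' t : C(N, ℝ)) p) t) (a : ι)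
    (t : ℝ) (p : N) :
    HasDerivAt (fun t => (S.X a (F t) : C(N, ℝ)) p) ((S.X a (F' t) : C(N, ℝ)) p) t := by
  obtain ⟨G, hG, hdG⟩ := h.dt _ (h.X F hF a)
  have hXF := h.curve hG hdG
  have hFc := h.curve hF' hd
  -- the integrated identity
  have e1 : ∀ s, (F' t : C(N, ℝ)) (S.Φ a s p) - (F' t : C(N, ℝ)) p
      = lineInt S a s p (G t : C(N, ℝ)) := by
    intro s
    have h1 : HasDerivAt (fun t => (F t : C(N, ℝ)) (S.Φ a s p) - (F t : C(N, ℝ)) p)
        ((F' t : C(N, ℝ)) (S.Φ a s p) - (F' t : C(N, ℝ)) p) t := (hd t _).sub (hd t p)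
    have h2 : HasDerivAt (fun t => lineInt S a s p (S.X a (F t) : C(N, ℝ)))
        (lineInt S a s p (G t : C(N, ℝ))) t :=
      (lineInt S a s p).hasFDerivAt.comp_hasDerivAt t (hXF t)
    have h3 : (fun t => (F t : C(N, ℝ)) (S.Φ a s p) - (F t : C(N, ℝ)) p)
        = fun t => lineInt S a s p (S.X a (F t) : C(N, ℝ)) := by
      funext τ
      exact flow_ftc S a (F τ) s p
    rw [h3] at h1
    exact h1.unique h2
  -- differentiate in `s`
  have h4 : HasDerivAt (fun s => (F' t : C(N, ℝ)) (S.Φ a s p))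
      ((S.X a (F' t) : C(N, ℝ)) p) 0 := S.der a (F' t) p
  have hc : Continuous fun σ : ℝ => (G t : C(N, ℝ)) (S.Φ a σ p) :=
    (G t : C(N, ℝ)).continuous.comp ((S.cont a).comp (continuous_id.prodMk continuous_const))
  have h5 : HasDerivAt (fun s => (F' t : C(N, ℝ)) p + lineInt S a s p (G t : C(N, ℝ)))
      ((G t : C(N, ℝ)) (S.Φ a 0 p)) 0 := by
    have := (intervalIntegral.integral_hasDerivAt_right (a := (0 : ℝ)) (b := 0)
      (f := fun σ : ℝ => (G t : C(N, ℝ)) (S.Φ a σ p)) (hc.intervalIntegrable _ _)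
      (hc.stronglyMeasurableAtFilter _ _) hc.continuousAt).const_add ((F' t : C(N, ℝ)) p)
    exact this
  have h6 : (fun s => (F' t : C(N, ℝ)) (S.Φ a s p))
      = fun s => (F' t : C(N, ℝ)) p + lineInt S a s p (G t : C(N, ℝ)) := by
    funext s
    rw [← e1 s]; ring
  rw [h6] at h4
  have h7 := h4.unique h5
  rw [S.zero] at h7
  have h8 := hdG t p
  rw [← h7] at h8
  exact h8

/-- differentiability in all `C^s` norms -/
theorem JS.cN_isLittleO (h : JS S 𝒮) (s : ℕ) {F F' : ℝ → S.A} (hF : F ∈ 𝒮) (hF' : F' ∈ 𝒮)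
    (hd : ∀ t p, HasDerivAt (fun t => (F t : C(N, ℝ)) p) ((F' t : C(N, ℝ)) p) t) (t : ℝ) :
    (fun h : ℝ => S.cN s (F (t + h) - F t - h • F' t)) =o[𝓝 0] fun h : ℝ => h := by
  induction s generalizing F F' with
  | zero =>
    have h1 := (hasDerivAt_iff_isLittleO_nhds_zero.1 (h.curve hF' hd t)).norm_left
    exact h1
  | succ s ih =>
    have h1 := ih hF hF' hd
    have h2 : ∀ a, (fun h : ℝ => S.cN s (S.X a (F (t + h) - F t - h • F' t))) =o[𝓝 0]
        fun h : ℝ => h := by
      intro a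
      have := ih (h.X F hF a) (h.X F' hF' a) (fun t p => h.comm hF hF' hd a t p)
      refine this.congr_left fun τ => ?_
      congr 1
      rw [map_sub, map_sub]
      congr 1
      exact ((S.X a).map_smul τ (F' t)).symm
    have h3 := IsLittleO.sum (s := Finset.univ) fun a (_ : a ∈ Finset.univ) => h2 a
    have h4 : (∑ a, fun h : ℝ => S.cN s (S.X a (F (t + h) - F t - h • F' t)))
        = fun h : ℝ => ∑ a, S.cN s (S.X a (F (t + h) - F t - h • F' t)) := by
      funext τ
      rw [Finset.sum_apply]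
    rw [h4] at h3
    exact h1.add h3

/-- **jointly smooth families are differentiable curves** -/
theorem JS.hasD [BorelSpace N] [IsFiniteMeasure μ] (hS : S.Loc) (h : JS S 𝒮) {F F' : ℝ → S.A}
    (hF : F ∈ 𝒮) (hF' : F' ∈ 𝒮)
    (hd : ∀ t p, HasDerivAt (fun t => (F t : C(N, ℝ)) p) ((F' t : C(N, ℝ)) p) t) (t : ℝ) :
    (cal S hS).HasD F (F' t) t := by
  intro s
  refine IsBigO.trans_isLittleO (IsBigO.of_bound (√(μ.real Set.univ)) ?_)
    (h.cN_isLittleO s hF hF' hd t)
  refine Eventually.of_forall fun τ => ?_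
  rw [Real.norm_of_nonneg ((cal S hS).n_nonneg _ _), Real.norm_of_nonneg (cN_nonneg S _ _)]
  exact n_le_cN S hS s _

end Vale.Agent.P207.H832
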