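import Vale.Agent.P207.H832.Interp

/-!
# Tame energy estimates for transport systems
-/

namespace Vale.Agent.P207.H832

open Finset Asymptotics Filter Topology

namespace Cal

variable {A κ : Type*} [CommRing A] [Algebra ℝ A] [Fintype κ] (S : Cal A κ)

/-- the transport term costs no derivative of `u` -/
theorem B_transport_T (s : ℕ) : ∃ C : ℝ, 0 ≤ C ∧ ∀ (m : κ) (w u : A),
    |S.B s u (w * S.X m u)| ≤
      C * (S.n s u * ∑ i ∈ Finset.range (s + 1), S.T (i + 1) (s - i) w u) := by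
  induction s with
  | zero =>
    refine ⟨S.CS, S.CS_nonneg, fun m w u => ?_⟩
    have e1 : 2 * S.B 0 u (w * S.X m u) = - S.B 0 u (S.X m w * u) := by
      rw [B_zero, B_zero]
      have h := S.I_X m (w * (u * u))
      rw [S.leib, S.leib] at h
      have e : S.X m w * (u * u) + w * (S.X m u * u + u * S.X m u)
          = u * (S.X m w * u) + (2 : ℝ) • (u * (w * S.X m u)) := by
        rw [two_smul]
        ring
      rw [e, map_add, map_smul, smul_eq_mul] at h
      linarith
    have h1 := S.abs_B_le 0 u (S.X m w * u)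
    have h2 : S.n 0 (S.X m w * u) ≤ S.CS * S.T 1 0 w u :=
      (S.n_zero_mul_le_T _ _).trans (mul_le_mul_of_nonneg_left (S.T_X_left 0 0 m w u) S.CS_nonneg)
    have h3 := S.n_nonneg 0 u
    have h4 : |S.B 0 u (w * S.X m u)| ≤ |S.B 0 u (S.X m w * u)| := by
      have : S.B 0 u (w * S.X m u) = - (1 / 2) * S.B 0 u (S.X m w * u) := by linarith
      rw [this, abs_mul]
      have : |(-(1 / 2) : ℝ)| ≤ 1 := by rw [abs_le]; constructor <;> norm_num
      have h0 := abs_nonneg (S.B 0 u (S.X m w * u))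
      nlinarith
    simp only [zero_add, Finset.range_one, Finset.sum_singleton, Nat.sub_zero]
    calc |S.B 0 u (w * S.X m u)| ≤ S.n 0 u * S.n 0 (S.X m w * u) := h4.trans h1
      _ ≤ S.n 0 u * (S.CS * S.T 1 0 w u) := by gcongr
      _ = S.CS * (S.n 0 u * S.T 1 0 w u) := by ring
  | succ s ih =>
    obtain ⟨C, hC, h⟩ := ih
    obtain ⟨C', hC', h'⟩ := S.n_mul_le_T s
    choose Cc hCc hc using fun (x : κ × κ × κ) => S.n_mul_const_le s (S.c x.1 x.2.1 x.2.2)
    set Cm : ℝ := ∑ x : κ × κ × κ, Cc x with hCm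
    have hCm0 : 0 ≤ Cm := Finset.sum_nonneg fun x _ => hCc x
    have hCm1 : ∀ x, Cc x ≤ Cm := fun x =>
      Finset.single_le_sum (f := Cc) (fun x _ => hCc x) (Finset.mem_univ x)
    refine ⟨C + Fintype.card κ * (C + C' + Fintype.card κ * (Cm * C')), by positivity,
      fun m w u => ?_⟩
    set Sg := ∑ i ∈ Finset.range (s + 1 + 1), S.T (i + 1) (s + 1 - i) w u with hSg
    have hSg1 : ∀ f : ℕ → ℝ, (∀ i, i ≤ s → f i ≤ S.T (i + 1) (s + 1 - i) w u) →
        ∑ i ∈ Finset.range (s + 1), f i ≤ Sg := by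
      intro f hf
      rw [hSg, Finset.sum_range_succ _ (s + 1)]
      have h1 := S.T_nonneg (s + 1 + 1) (s + 1 - (s + 1)) w u
      have h2 : ∑ i ∈ Finset.range (s + 1), f i
          ≤ ∑ i ∈ Finset.range (s + 1), S.T (i + 1) (s + 1 - i) w u :=
        Finset.sum_le_sum fun i hi => hf i (by have := Finset.mem_range.1 hi; omega)
      linarith
    have hSg0 : 0 ≤ Sg := Finset.sum_nonneg fun i _ => S.T_nonneg _ _ _ _
    have hn1 := S.n_le_succ s u
    have hn0 := S.n_nonneg s u
    have hn := S.n_nonneg (s + 1) u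
    -- the four groups of terms
    have t0 : |S.B s u (w * S.X m u)| ≤ C * (S.n (s + 1) u * Sg) := by
      refine (h m w u).trans ?_
      have : ∑ i ∈ Finset.range (s + 1), S.T (i + 1) (s - i) w u ≤ Sg :=
        hSg1 _ fun i _ => S.T_mono le_rfl (by omega) w u
      have hpos : 0 ≤ ∑ i ∈ Finset.range (s + 1), S.T (i + 1) (s - i) w u :=
        Finset.sum_nonneg fun i _ => S.T_nonneg _ _ _ _
      gcongr
    have t1 : ∀ a, |S.B s (S.X a u) (w * S.X m (S.X a u))| ≤ C * (S.n (s + 1) u * Sg) := by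
      intro a
      refine (h m w (S.X a u)).trans ?_
      have : ∑ i ∈ Finset.range (s + 1), S.T (i + 1) (s - i) w (S.X a u) ≤ Sg :=
        hSg1 _ fun i hi => by
          rw [show s + 1 - i = s - i + 1 by omega]
          exact S.T_X_right _ _ _ _ _
      have h2 := S.n_X_le s a u
      have hpos : 0 ≤ ∑ i ∈ Finset.range (s + 1), S.T (i + 1) (s - i) w (S.X a u) :=
        Finset.sum_nonneg fun i _ => S.T_nonneg _ _ _ _
      gcongr
    have t2 : ∀ a, |S.B s (S.X a u) (S.X a w * S.X m u)| ≤ C' * (S.n (s + 1) u * Sg) := by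
      intro a
      refine (S.abs_B_le s _ _).trans ?_
      have h1 : S.n s (S.X a w * S.X m u) ≤ C' * Sg := by
        refine (h' _ _).trans ?_
        gcongr
        refine hSg1 _ fun i hi => ?_
        rw [show s + 1 - i = s - i + 1 by omega]
        exact (S.T_X_left _ _ _ _ _).trans (S.T_X_right _ _ _ _ _)
      have h2 := S.n_X_le s a u
      have h3 := S.n_nonneg s (S.X a w * S.X m u)
      calc S.n s (S.X a u) * S.n s (S.X a w * S.X m u) ≤ S.n (s + 1) u * (C' * Sg) := by gcongr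
        _ = C' * (S.n (s + 1) u * Sg) := by ring
    have t3 : ∀ a k, |S.B s (S.X a u) (w * (S.c a m k * S.X k u))|
        ≤ Cm * C' * (S.n (s + 1) u * Sg) := by
      intro a k
      refine (S.abs_B_le s _ _).trans ?_
      have h1 : S.n s (w * (S.c a m k * S.X k u)) ≤ Cm * (C' * Sg) := by
        rw [show w * (S.c a m k * S.X k u) = S.c a m k * (w * S.X k u) by ring]
        refine (hc (a, m, k) _).trans ?_
        have h4 : S.n s (w * S.X k u) ≤ C' * Sg := by
          refine (h' _ _).trans ?_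
          gcongr
          refine hSg1 _ fun i hi => ?_
          rw [show s + 1 - i = s - i + 1 by omega]
          exact (S.T_X_right _ _ _ _ _).trans (S.T_mono (by omega) le_rfl _ _)
        have h5 := hCm1 (a, m, k)
        have h6 := S.n_nonneg s (w * S.X k u)
        gcongr
      have h2 := S.n_X_le s a u
      have h3 := S.n_nonneg s (w * (S.c a m k * S.X k u))
      calc S.n s (S.X a u) * S.n s (w * (S.c a m k * S.X k u))
          ≤ S.n (s + 1) u * (Cm * (C' * Sg)) := by gcongr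
        _ = Cm * C' * (S.n (s + 1) u * Sg) := by ring
    have e1 : ∀ a, S.X a (w * S.X m u) = S.X a w * S.X m u + w * S.X m (S.X a u)
        + ∑ k, w * (S.c a m k * S.X k u) := by
      intro a
      rw [S.leib, ← Finset.mul_sum, ← S.comm a m u]
      ring
    have t4 : ∀ a, |S.B s (S.X a u) (S.X a (w * S.X m u))|
        ≤ (C + C' + Fintype.card κ * (Cm * C')) * (S.n (s + 1) u * Sg) := by
      intro a
      rw [e1, B_add_right, B_add_right, B_sum_right]
      refine (abs_add_three _ _ _).trans ?_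
      have h5 : |∑ k, S.B s (S.X a u) (w * (S.c a m k * S.X k u))|
          ≤ ∑ _k : κ, Cm * C' * (S.n (s + 1) u * Sg) :=
        (Finset.abs_sum_le_sum_abs _ _).trans (Finset.sum_le_sum fun k _ => t3 a k)
      rw [Finset.sum_const, Finset.card_univ, nsmul_eq_mul] at h5
      have h6 := t1 a
      have h7 := t2 a
      linarith
    rw [B_succ]
    refine (abs_add_le _ _).trans ?_
    have h8 : |∑ a, S.B s (S.X a u) (S.X a (w * S.X m u))|
        ≤ ∑ _a : κ, (C + C' + Fintype.card κ * (Cm * C')) * (S.n (s + 1) u * Sg) :=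
      (Finset.abs_sum_le_sum_abs _ _).trans (Finset.sum_le_sum fun a _ => t4 a)
    rw [Finset.sum_const, Finset.card_univ, nsmul_eq_mul] at h8
    linarith

/-- tame form -/
theorem B_transport (s : ℕ) : ∃ C : ℝ, 0 ≤ C ∧ ∀ (m : κ) (w u : A),
    |S.B s u (w * S.X m u)| ≤
      C * (S.n s u * (S.n (s + 1) w * S.n S.D u + S.n (2 * S.D + 1) w * S.n s u)) := by
  obtain ⟨C, hC, h⟩ := S.B_transport_T s
  obtain ⟨C', hC', h'⟩ := S.T_tame s 1
  refine ⟨C * ((s + 1) * C'), by positivity, fun m w u => ?_⟩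
  refine (h m w u).trans ?_
  have : ∑ i ∈ Finset.range (s + 1), S.T (i + 1) (s - i) w u
      ≤ ∑ _i ∈ Finset.range (s + 1),
        C' * (S.n (s + 1) w * S.n S.D u + S.n (2 * S.D + 1) w * S.n s u) := by
    refine Finset.sum_le_sum fun i hi => ?_
    exact h' w u i (by have := Finset.mem_range.1 hi; omega)
  rw [Finset.sum_const, Finset.card_range, nsmul_eq_mul] at this
  have hn := S.n_nonneg s u
  calc C * (S.n s u * ∑ i ∈ Finset.range (s + 1), S.T (i + 1) (s - i) w u)
      ≤ C * (S.n s u * (((s + 1 : ℕ) : ℝ) *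
        (C' * (S.n (s + 1) w * S.n S.D u + S.n (2 * S.D + 1) w * S.n s u)))) := by
        gcongr
    _ = C * ((s + 1) * C') *
        (S.n s u * (S.n (s + 1) w * S.n S.D u + S.n (2 * S.D + 1) w * S.n s u)) := by
        push_cast
        ring

/-! ### differentiable families -/

/-- `k` is differentiable at `t` in all Sobolev seminorms, with derivative `k'` -/
def HasD (k : ℝ → A) (k' : A) (t : ℝ) : Prop :=
  ∀ s, (fun h : ℝ => S.n s (k (t + h) - k t - h • k')) =o[𝓝 0] fun h : ℝ => h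

variable {S}

theorem HasD.add {k l : ℝ → A} {k' l' : A} {t : ℝ} (hk : S.HasD k k' t) (hl : S.HasD l l' t) :
    S.HasD (fun t => k t + l t) (k' + l') t := by
  intro s
  refine IsBigO.trans_isLittleO (IsBigO.of_bound 1 ?_) ((hk s).add (hl s))
  refine Eventually.of_forall fun h => ?_
  rw [one_mul, Real.norm_of_nonneg (S.n_nonneg _ _), Real.norm_of_nonneg
    (add_nonneg (S.n_nonneg _ _) (S.n_nonneg _ _))]
  refine le_trans (le_of_eq ?_) (S.n_add_le _ _ _)
  congr 1
  rw [smul_add]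
  ring

theorem HasD.const (u : A) (t : ℝ) : S.HasD (fun _ => u) 0 t := by
  intro s
  simp [S.n_zero]

theorem HasD.smul_const (u : A) (t : ℝ) : S.HasD (fun t => t • u) u t := by
  intro s
  have : (fun h : ℝ => S.n s ((t + h) • u - t • u - h • u)) = fun _ => 0 := by
    funext h
    rw [add_smul]
    simp [S.n_zero]
  rw [this]
  exact isLittleO_zero _ _

theorem HasD.sub {k l : ℝ → A} {k' l' : A} {t : ℝ} (hk : S.HasD k k' t) (hl : S.HasD l l' t) :
    S.HasD (fun t => k t - l t) (k' - l') t := by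
  intro s
  refine IsBigO.trans_isLittleO (IsBigO.of_bound 1 ?_) ((hk s).add (hl s))
  refine Eventually.of_forall fun h => ?_
  rw [one_mul, Real.norm_of_nonneg (S.n_nonneg _ _), Real.norm_of_nonneg
    (add_nonneg (S.n_nonneg _ _) (S.n_nonneg _ _))]
  refine le_trans (le_of_eq ?_) (S.n_sub_le _ _ _)
  congr 1
  rw [smul_sub]
  ring

theorem HasD.energy {k : ℝ → A} {k' : A} {t : ℝ} (hk : S.HasD k k' t) (s : ℕ) :
    HasDerivAt (fun t => S.E s (k t)) (2 * S.B s (k t) k') t := by
  rw [hasDerivAt_iff_isLittleO_nhds_zero]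
  set r : ℝ → A := fun h => k (t + h) - k t - h • k' with hr
  have hs := hk s
  have e : ∀ h, S.E s (k (t + h)) - S.E s (k t) - h • (2 * S.B s (k t) k')
      = h ^ 2 * S.E s k' + 2 * S.B s (k t) (r h) + 2 * (h * S.B s k' (r h)) + S.n s (r h) ^ 2 := by
    intro h
    have e1 : k (t + h) = k t + (h • k' + r h) := by
      rw [hr]
      simp only
      abel
    rw [e1, E_add, E_add, B_add_right, B_smul_right, B_smul_left, E_smul, n_sq, smul_eq_mul]
    ring
  simp only [e]
  have b1 : (fun h : ℝ => h ^ 2 * S.E s k') =o[𝓝 0] fun h : ℝ => h := by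
    have : (fun h : ℝ => h ^ 2) =o[𝓝 0] fun h : ℝ => h := by
      have := isLittleO_pow_id (𝕜 := ℝ) (show 1 < 2 by norm_num)
      simpa using this
    simpa [mul_comm] using this.const_mul_left (S.E s k')
  have b2 : (fun h : ℝ => 2 * S.B s (k t) (r h)) =o[𝓝 0] fun h : ℝ => h := by
    refine IsBigO.trans_isLittleO (IsBigO.of_bound (2 * S.n s (k t)) ?_) hs
    refine Eventually.of_forall fun h => ?_
    rw [Real.norm_of_nonneg (S.n_nonneg _ _), norm_mul, Real.norm_two, Real.norm_eq_abs]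
    have := S.abs_B_le s (k t) (r h)
    nlinarith
  have b3 : (fun h : ℝ => 2 * (h * S.B s k' (r h))) =o[𝓝 0] fun h : ℝ => h := by
    have h1 : (fun h : ℝ => S.B s k' (r h)) =o[𝓝 0] fun h : ℝ => h := by
      refine IsBigO.trans_isLittleO (IsBigO.of_bound (S.n s k') ?_) hs
      refine Eventually.of_forall fun h => ?_
      rw [Real.norm_of_nonneg (S.n_nonneg _ _), Real.norm_eq_abs]
      exact S.abs_B_le s k' (r h)
    have h2 : (fun h : ℝ => h * S.B s k' (r h)) =o[𝓝 0] fun h : ℝ => 1 * h := by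
      refine IsBigO.mul_isLittleO ?_ h1
      exact (continuous_id.tendsto (0 : ℝ)).isBigO_one ℝ
    simp only [one_mul] at h2
    exact h2.const_mul_left 2
  have b4 : (fun h : ℝ => S.n s (r h) ^ 2) =o[𝓝 0] fun h : ℝ => h := by
    have h2 : (fun h : ℝ => S.n s (r h) * S.n s (r h)) =o[𝓝 0] fun h : ℝ => 1 * h := by
      refine IsBigO.mul_isLittleO ?_ hs
      have h0 : Tendsto (fun h : ℝ => h) (𝓝 0) (𝓝 0) := tendsto_id
      exact (hs.isBigO.trans_tendsto h0).isBigO_one ℝ
    simpa [one_mul, sq] using h2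
  exact ((b1.add b2).add b3).add b4

variable (S)

/-! ### vector valued functions -/

/-- Sobolev seminorm of a vector valued function -/
noncomputable def N {ι : Type*} [Fintype ι] (s : ℕ) (v : ι → A) : ℝ := √(∑ i, S.E s (v i))

variable {ι : Type*} [Fintype ι]

theorem N_nonneg (s : ℕ) (v : ι → A) : 0 ≤ S.N s v := Real.sqrt_nonneg _

theorem N_sq (s : ℕ) (v : ι → A) : S.N s v ^ 2 = ∑ i, S.E s (v i) :=
  Real.sq_sqrt (Finset.sum_nonneg fun _ _ => S.E_nonneg _ _)

theorem n_le_N (s : ℕ) (v : ι → A) (i : ι) : S.n s (v i) ≤ S.N s v := by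
  refine abs_le_of_sq_le_sq' ?_ (S.N_nonneg _ _) |>.2
  rw [N_sq, n_sq]
  exact Finset.single_le_sum (f := fun i => S.E s (v i)) (fun i _ => S.E_nonneg _ _)
    (Finset.mem_univ i)

theorem N_le_sum (s : ℕ) (v : ι → A) : S.N s v ≤ ∑ i, S.n s (v i) := by
  have h1 : 0 ≤ ∑ i, S.n s (v i) := Finset.sum_nonneg fun i _ => S.n_nonneg _ _
  refine abs_le_of_sq_le_sq' ?_ h1 |>.2
  rw [N_sq, sq (∑ i, S.n s (v i)), Finset.sum_mul]
  refine Finset.sum_le_sum fun i _ => ?_
  rw [← n_sq, sq]
  have := S.n_nonneg s (v i)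
  gcongr
  exact Finset.single_le_sum (f := fun i => S.n s (v i)) (fun i _ => S.n_nonneg _ _)
    (Finset.mem_univ i)

theorem N_mono {s t : ℕ} (h : s ≤ t) (v : ι → A) : S.N s v ≤ S.N t v := by
  refine abs_le_of_sq_le_sq' ?_ (S.N_nonneg _ _) |>.2
  rw [N_sq, N_sq]
  refine Finset.sum_le_sum fun i _ => ?_
  rw [← n_sq, ← n_sq]
  have := S.n_nonneg s (v i)
  gcongr
  exact S.n_mono h _

end Cal

/-- a simple Gronwall inequality -/
theorem gronwall_simple (K ε : ℝ) (hK : 0 ≤ K) (hε : 0 ≤ ε) (F F' : ℝ → ℝ)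
    (hF : ∀ t ∈ Set.Icc (0 : ℝ) 1, HasDerivAt F (F' t) t)
    (hb : ∀ t ∈ Set.Icc (0 : ℝ) 1, F' t ≤ K * F t + ε) (t : ℝ) (ht : t ∈ Set.Icc (0 : ℝ) 1)
    (hF0 : 0 ≤ F 0) :
    F t ≤ Real.exp K * (F 0 + ε) := by
  set G : ℝ → ℝ := fun t => Real.exp (-K * t) * F t - ε * t with hG
  have hGd : ∀ t ∈ Set.Icc (0 : ℝ) 1,
      HasDerivAt G (Real.exp (-K * t) * (F' t - K * F t) - ε) t := by
    intro t ht
    have h1 : HasDerivAt (fun t : ℝ => Real.exp (-K * t)) (Real.exp (-K * t) * (-K * 1)) t :=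
      ((hasDerivAt_id t).const_mul (-K)).exp
    have h2 := (h1.mul (hF t ht)).sub ((hasDerivAt_id t).const_mul ε)
    refine h2.congr_deriv ?_
    ring
  have hanti : AntitoneOn G (Set.Icc (0 : ℝ) 1) := by
    apply antitoneOn_of_deriv_nonpos (convex_Icc 0 1)
    · intro x hx
      exact (hGd x hx).continuousAt.continuousWithinAt
    · intro x hx
      rw [interior_Icc] at hx
      exact (hGd x ⟨hx.1.le, hx.2.le⟩).differentiableAt.differentiableWithinAt
    · intro x hx
      rw [interior_Icc] at hx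
      have hx' : x ∈ Set.Icc (0 : ℝ) 1 := ⟨hx.1.le, hx.2.le⟩
      rw [(hGd x hx').deriv]
      have h1 := hb x hx'
      have h2 : Real.exp (-K * x) ≤ 1 := Real.exp_le_one_iff.2 (by nlinarith [hx.1])
      have h3 := Real.exp_pos (-K * x)
      nlinarith
  have h0 : (0 : ℝ) ∈ Set.Icc (0 : ℝ) 1 := ⟨le_rfl, zero_le_one⟩
  have h1 := hanti h0 ht ht.1
  simp only [hG, mul_zero, Real.exp_zero, one_mul, sub_zero] at h1
  have h2 : Real.exp (-K * t) * F t ≤ F 0 + ε := by nlinarith [ht.2]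
  have h3 : F t = Real.exp (K * t) * (Real.exp (-K * t) * F t) := by
    rw [← mul_assoc, ← Real.exp_add]
    simp
  rw [h3]
  have h4 : Real.exp (K * t) ≤ Real.exp K := Real.exp_le_exp.2 (by nlinarith [ht.2])
  have h5 := Real.exp_pos (K * t)
  calc Real.exp (K * t) * (Real.exp (-K * t) * F t) ≤ Real.exp (K * t) * (F 0 + ε) := by gcongr
    _ ≤ Real.exp K * (F 0 + ε) := by gcongr

end Vale.Agent.P207.H832
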