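import Vale.Agent.P207.H832.Transport
import Vale.Agent.P207.H571.L2Sys
import Vale.Agent.P207.H955.Sob

/-!
# The Sobolev calculus of a system of measure preserving flows

`cal S hS : Cal S.A ι` for `S : NSys ι N μ`, `hS : S.Loc`; comparison of the norms `n`, `hN`, `cN`;
differentiable curves of smooth functions.
-/

open MeasureTheory Filter Topology Asymptotics

noncomputable section

set_option linter.unusedSectionVars false

namespace Vale.Agent.P207.H832

open H395 H571

variable {ι : Type} [Fintype ι] {N : Type} [TopologicalSpace N] [CompactSpace N]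
  [MeasurableSpace N] [BorelSpace N] {μ : Measure N} [IsFiniteMeasure μ]

/-- smooth functions with their derivations -/
def fd (S : NSys ι N μ) : H955.FlowDer S.Φ S.A where
  ev u p := (u : C(N, ℝ)) p
  X a u := S.X a u
  cont u := (u : C(N, ℝ)).continuous
  der a u p t := hasDerivAt_flow S a u p t

theorem integrable_cont (f : C(N, ℝ)) : Integrable (fun p => f p) μ :=
  f.continuous.integrable_of_hasCompactSupport (HasCompactSupport.of_compactSpace _)

/-- the integral as a linear functional on smooth functions -/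
def intL (S : NSys ι N μ) : S.A →ₗ[ℝ] ℝ where
  toFun u := ∫ p, (u : C(N, ℝ)) p ∂μ
  map_add' u v := by
    simp only [Subalgebra.coe_add, ContinuousMap.add_apply]
    exact integral_add (integrable_cont _) (integrable_cont _)
  map_smul' r u := by
    simp only [Subalgebra.coe_smul, ContinuousMap.smul_apply, smul_eq_mul, RingHom.id_apply]
    exact integral_const_mul _ _

/-- the derivations as linear maps -/
def XS (S : NSys ι N μ) (a : ι) : S.A →ₗ[ℝ] S.A := (S.X a).toLinearMap

theorem l2_sq (S : NSys ι N μ) (u : S.A) : S.l2 u ^ 2 = intL S (u * u) := by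
  unfold NSys.l2
  rw [Real.sq_sqrt (integral_nonneg fun p => sq_nonneg _)]
  change _ = ∫ p, ((u * u : S.A) : C(N, ℝ)) p ∂μ
  simp only [Subalgebra.coe_mul, ContinuousMap.mul_apply, sq]

theorem BF_nonneg (S : NSys ι N μ) (s : ℕ) (u : S.A) : 0 ≤ BF (XS S) (intL S) s u u := by
  induction s generalizing u with
  | zero =>
    change 0 ≤ intL S (u * u)
    rw [← l2_sq]; positivity
  | succ s ih =>
    change 0 ≤ BF (XS S) (intL S) s u u + ∑ a, BF (XS S) (intL S) s (XS S a u) (XS S a u)
    exact add_nonneg (ih u) (Finset.sum_nonneg fun a _ => ih _)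

theorem BF_mono (S : NSys ι N μ) {s t : ℕ} (h : s ≤ t) (u : S.A) :
    BF (XS S) (intL S) s u u ≤ BF (XS S) (intL S) t u u := by
  induction h with
  | refl => exact le_rfl
  | @step m _ ih =>
    refine ih.trans ?_
    change _ ≤ BF (XS S) (intL S) m u u + ∑ a, BF (XS S) (intL S) m (XS S a u) (XS S a u)
    have : 0 ≤ ∑ a, BF (XS S) (intL S) m (XS S a u) (XS S a u) :=
      Finset.sum_nonneg fun a _ => BF_nonneg S _ _
    linarith

theorem BF_it (S : NSys ι N μ) (l : List ι) (s : ℕ) (h : l.length ≤ s) (u : S.A) :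
    S.l2 ((fd S).it l u) ^ 2 ≤ BF (XS S) (intL S) s u u := by
  induction l generalizing s u with
  | nil =>
    rw [l2_sq]
    exact BF_mono S (Nat.zero_le s) u
  | cons a l ih =>
    obtain ⟨s, rfl⟩ : ∃ s', s = s' + 1 := ⟨s - 1, by simp at h; omega⟩
    have h1 := ih s (by simpa using h) (S.X a u)
    change S.l2 ((fd S).it l (S.X a u)) ^ 2 ≤
      BF (XS S) (intL S) s u u + ∑ a, BF (XS S) (intL S) s (XS S a u) (XS S a u)
    refine h1.trans ?_
    have h2 := BF_nonneg S s u
    have h3 : BF (XS S) (intL S) s (XS S a u) (XS S a u)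
        ≤ ∑ a, BF (XS S) (intL S) s (XS S a u) (XS S a u) :=
      Finset.single_le_sum (f := fun a => BF (XS S) (intL S) s (XS S a u) (XS S a u))
        (fun a _ => BF_nonneg S _ _) (Finset.mem_univ a)
    change BF (XS S) (intL S) s (XS S a u) (XS S a u) ≤ _
    linarith

theorem l2_nonneg (S : NSys ι N μ) (u : S.A) : 0 ≤ S.l2 u := Real.sqrt_nonneg _

/-- `L¹` is controlled by `L²` -/
theorem integral_abs_le (S : NSys ι N μ) (u : S.A) :
    ∫ p, |(u : C(N, ℝ)) p| ∂μ ≤ √(μ.real Set.univ) * S.l2 u := by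
  have h1 : (∫ p, |(u : C(N, ℝ)) p| ∂μ) ^ 2 ≤ (μ.real Set.univ) * ∫ p, (u : C(N, ℝ)) p ^ 2 ∂μ := by
    -- Cauchy-Schwarz by the discriminant
    have hq : ∀ x : ℝ, 0 ≤ μ.real Set.univ * (x * x) + 2 * (∫ p, |(u : C(N, ℝ)) p| ∂μ) * x
        + ∫ p, (u : C(N, ℝ)) p ^ 2 ∂μ := by
      intro x
      have h2 : 0 ≤ ∫ p, (x + |(u : C(N, ℝ)) p|) ^ 2 ∂μ := integral_nonneg fun p => sq_nonneg _
      have i1 : Integrable (fun p => |(u : C(N, ℝ)) p|) μ := (integrable_cont (u : C(N, ℝ))).abs
      have i2 : Integrable (fun p => (u : C(N, ℝ)) p ^ 2) μ := by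
        have := integrable_cont (μ := μ) ((u : C(N, ℝ)) ^ 2)
        simpa using this
      have h3 : ∫ p, (x + |(u : C(N, ℝ)) p|) ^ 2 ∂μ
          = ∫ p, (x ^ 2 + (2 * x) * |(u : C(N, ℝ)) p|) + (u : C(N, ℝ)) p ^ 2 ∂μ := by
        refine integral_congr_ae (Eventually.of_forall fun p => ?_)
        simp only
        have := sq_abs ((u : C(N, ℝ)) p)
        nlinarith [this]
      have i3 : Integrable (fun p => x ^ 2 + (2 * x) * |(u : C(N, ℝ)) p|) μ :=
        (integrable_const _).add (i1.const_mul _)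
      rw [h3, integral_add i3 i2,
        integral_add (integrable_const _) (i1.const_mul _), integral_const, integral_const_mul,
        smul_eq_mul] at h2
      linarith
    have := discrim_le_zero hq
    unfold discrim at this
    nlinarith [this]
  have h0 : 0 ≤ √(μ.real Set.univ) * S.l2 u := mul_nonneg (Real.sqrt_nonneg _) (l2_nonneg S u)
  refine abs_le_of_sq_le_sq' ?_ h0 |>.2
  rw [mul_pow, Real.sq_sqrt measureReal_nonneg]
  unfold NSys.l2
  rw [Real.sq_sqrt (integral_nonneg fun p => sq_nonneg _)]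
  exact h1

/-- Sobolev embedding -/
theorem exists_sob (S : NSys ι N μ) (hS : S.Loc) : ∃ (D : ℕ) (C : ℝ), 0 ≤ C ∧ ∀ u : S.A,
    ‖(u : C(N, ℝ))‖ ^ 2 ≤ C ^ 2 * BF (XS S) (intL S) D u u := by
  obtain ⟨l, r, C, hr, hloc⟩ := hS
  set C' : ℝ := (max (1 / r) 1) ^ l.length * |C| *
    (l.sublists'.length * √(μ.real Set.univ)) with hC'
  have hC0 : 0 ≤ C' := by
    have : (0 : ℝ) ≤ max (1 / r) 1 := le_max_of_le_right zero_le_one
    positivity
  refine ⟨l.length, C', hC0, fun u => ?_⟩
  set b : ℝ := √(BF (XS S) (intL S) l.length u u) with hb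
  have hb0 : 0 ≤ b := Real.sqrt_nonneg _
  have hb2 : b ^ 2 = BF (XS S) (intL S) l.length u u := Real.sq_sqrt (BF_nonneg S _ _)
  rw [← hb2, ← mul_pow]
  have key : ‖(u : C(N, ℝ))‖ ≤ C' * b := by
    refine (ContinuousMap.norm_le _ (mul_nonneg hC0 hb0)).2 fun p => ?_
    have h1 := (fd S).sobolev S.cont S.zero hr l (μ := μ) (C := |C|)
      (fun F hF hF0 p => (hloc F hF hF0 p).trans
        (mul_le_mul_of_nonneg_right (le_abs_self C) (integral_nonneg hF0))) u p
    rw [Real.norm_eq_abs]
    refine h1.trans ?_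
    have hpos : (0 : ℝ) ≤ (max (1 / r) 1) ^ l.length * |C| := by
      have : (0 : ℝ) ≤ max (1 / r) 1 := le_max_of_le_right zero_le_one
      positivity
    rw [hC', mul_assoc _ (_ * _) b]
    refine mul_le_mul_of_nonneg_left ?_ hpos
    have h2 : ∀ x ∈ l.sublists'.map fun l' => ∫ q, |(fd S).ev ((fd S).it l' u) q| ∂μ,
        x ≤ √(μ.real Set.univ) * b := by
      intro x hx
      obtain ⟨l', hl', rfl⟩ := List.mem_map.1 hx
      have hlen : l'.length ≤ l.length := (List.mem_sublists'.1 hl').length_le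
      refine (integral_abs_le S ((fd S).it l' u)).trans ?_
      refine mul_le_mul_of_nonneg_left ?_ (Real.sqrt_nonneg _)
      refine abs_le_of_sq_le_sq' ?_ hb0 |>.2
      rw [hb2]
      exact BF_it S l' _ hlen u
    have h3 := List.sum_le_card_nsmul _ _ h2
    rw [List.length_map, nsmul_eq_mul] at h3
    refine h3.trans (le_of_eq ?_)
    ring
  have := norm_nonneg (u : C(N, ℝ))
  gcongr

/-- **the Sobolev calculus** of a system of flows -/
def cal (S : NSys ι N μ) (hS : S.Loc) : Cal S.A ι where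
  X := XS S
  leib a u v := by
    change S.X a (u * v) = S.X a u * v + u * S.X a v
    rw [Derivation.leibniz, smul_eq_mul, smul_eq_mul]
    ring
  I := intL S
  I_sq u := by rw [← l2_sq]; positivity
  I_X a u := integral_X S a u
  p u := ‖(u : C(N, ℝ))‖
  p_nonneg u := norm_nonneg _
  I_mul u v := by
    change ∫ p, (((u * v) * (u * v) : S.A) : C(N, ℝ)) p ∂μ
      ≤ ‖(u : C(N, ℝ))‖ ^ 2 * ∫ p, ((v * v : S.A) : C(N, ℝ)) p ∂μ
    rw [← integral_const_mul]
    refine integral_mono (integrable_cont _) ((integrable_cont _).const_mul _) fun p => ?_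
    simp only [Subalgebra.coe_mul, ContinuousMap.mul_apply]
    have h1 := (u : C(N, ℝ)).norm_coe_le_norm p
    rw [Real.norm_eq_abs] at h1
    have h2 : (u : C(N, ℝ)) p ^ 2 ≤ ‖(u : C(N, ℝ))‖ ^ 2 := by
      rw [← sq_abs]
      gcongr
    nlinarith [mul_le_mul_of_nonneg_right h2 (sq_nonneg ((v : C(N, ℝ)) p))]
  c := S.c
  comm a b u := S.brk a b u
  D := (exists_sob S hS).choose
  CS := (exists_sob S hS).choose_spec.choose
  CS_nonneg := (exists_sob S hS).choose_spec.choose_spec.1
  sob := (exists_sob S hS).choose_spec.choose_spec.2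

variable (S : NSys ι N μ) (hS : S.Loc)

@[simp] theorem cal_X (a : ι) (u : S.A) : (cal S hS).X a u = S.X a u := rfl

@[simp] theorem cal_p (u : S.A) : (cal S hS).p u = ‖(u : C(N, ℝ))‖ := rfl

theorem cal_n_zero (u : S.A) : (cal S hS).n 0 u = S.l2 u := by
  have h : (cal S hS).n 0 u ^ 2 = S.l2 u ^ 2 := by
    rw [Cal.n_sq, l2_sq]; rfl
  exact (pow_left_inj₀ ((cal S hS).n_nonneg _ _) (l2_nonneg S u) (by norm_num)).1 h

theorem n_le_hN (s : ℕ) (u : S.A) : (cal S hS).n s u ≤ S.hN s u := by
  induction s generalizing u with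
  | zero => exact (cal_n_zero S hS u).le
  | succ s ih =>
    refine ((cal S hS).n_succ_le s u).trans ?_
    change _ ≤ S.hN s u + ∑ a, S.hN s (S.X a u)
    gcongr with a
    · exact ih u
    · exact ih _

theorem hN_le_n (s : ℕ) (u : S.A) :
    S.hN s u ≤ (1 + (Fintype.card ι : ℝ)) ^ s * (cal S hS).n s u := by
  induction s generalizing u with
  | zero => rw [pow_zero, one_mul]; exact (cal_n_zero S hS u).ge
  | succ s ih =>
    change S.hN s u + ∑ a, S.hN s (S.X a u) ≤ _
    have h1 : ∀ a, S.hN s (S.X a u) ≤ (1 + (Fintype.card ι : ℝ)) ^ s * (cal S hS).n (s + 1) u := by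
      intro a
      refine (ih _).trans ?_
      gcongr
      exact (cal S hS).n_X_le s a u
    have h2 : S.hN s u ≤ (1 + (Fintype.card ι : ℝ)) ^ s * (cal S hS).n (s + 1) u := by
      refine (ih _).trans ?_
      gcongr
      exact (cal S hS).n_le_succ s u
    calc S.hN s u + ∑ a, S.hN s (S.X a u)
        ≤ (1 + (Fintype.card ι : ℝ)) ^ s * (cal S hS).n (s + 1) u
          + ∑ _a : ι, (1 + (Fintype.card ι : ℝ)) ^ s * (cal S hS).n (s + 1) u := by
          gcongr with a
          exact h1 a
      _ = _ := by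
          rw [Finset.sum_const, Finset.card_univ, nsmul_eq_mul]
          ring

theorem cN_nonneg (s : ℕ) (u : S.A) : 0 ≤ S.cN s u := by
  induction s generalizing u with
  | zero => exact norm_nonneg _
  | succ s ih => exact add_nonneg (ih u) (Finset.sum_nonneg fun a _ => ih _)

theorem hN_nonneg (s : ℕ) (u : S.A) : 0 ≤ S.hN s u := by
  induction s generalizing u with
  | zero => exact l2_nonneg S u
  | succ s ih => exact add_nonneg (ih u) (Finset.sum_nonneg fun a _ => ih _)

/-- Sobolev embedding, all orders -/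
theorem cN_le_n (s : ℕ) (u : S.A) :
    S.cN s u ≤ (cal S hS).CS * (1 + (Fintype.card ι : ℝ)) ^ s *
      (cal S hS).n (s + (cal S hS).D) u := by
  have hCS := (cal S hS).CS_nonneg
  induction s generalizing u with
  | zero =>
    rw [pow_zero, mul_one, zero_add]
    exact (cal S hS).p_le u
  | succ s ih =>
    change S.cN s u + ∑ a, S.cN s (S.X a u) ≤ _
    have e : s + 1 + (cal S hS).D = s + (cal S hS).D + 1 := by ring
    rw [e]
    have h1 : ∀ a, S.cN s (S.X a u) ≤ (cal S hS).CS * (1 + (Fintype.card ι : ℝ)) ^ s *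
        (cal S hS).n (s + (cal S hS).D + 1) u := by
      intro a
      refine (ih _).trans ?_
      gcongr
      exact (cal S hS).n_X_le _ a u
    have h2 : S.cN s u ≤ (cal S hS).CS * (1 + (Fintype.card ι : ℝ)) ^ s *
        (cal S hS).n (s + (cal S hS).D + 1) u := by
      refine (ih _).trans ?_
      gcongr
      exact (cal S hS).n_le_succ _ u
    calc S.cN s u + ∑ a, S.cN s (S.X a u)
        ≤ (cal S hS).CS * (1 + (Fintype.card ι : ℝ)) ^ s *
            (cal S hS).n (s + (cal S hS).D + 1) u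
          + ∑ _a : ι, (cal S hS).CS * (1 + (Fintype.card ι : ℝ)) ^ s *
            (cal S hS).n (s + (cal S hS).D + 1) u := by
          gcongr with a
          exact h1 a
      _ = _ := by
          rw [Finset.sum_const, Finset.card_univ, nsmul_eq_mul]
          ring

theorem l2_le_norm (u : S.A) : S.l2 u ≤ √(μ.real Set.univ) * ‖(u : C(N, ℝ))‖ := by
  refine abs_le_of_sq_le_sq' ?_ (by positivity) |>.2
  rw [mul_pow, Real.sq_sqrt measureReal_nonneg]
  unfold NSys.l2
  rw [Real.sq_sqrt (integral_nonneg fun p => sq_nonneg _)]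
  have h1 : ∫ p, (u : C(N, ℝ)) p ^ 2 ∂μ ≤ ∫ _p : N, ‖(u : C(N, ℝ))‖ ^ 2 ∂μ := by
    refine integral_mono ?_ (integrable_const _) fun p => ?_
    · have := integrable_cont (μ := μ) ((u : C(N, ℝ)) ^ 2)
      simpa using this
    · have h1 := (u : C(N, ℝ)).norm_coe_le_norm p
      rw [Real.norm_eq_abs] at h1
      simp only
      rw [← sq_abs]
      gcongr
  rw [integral_const, smul_eq_mul] at h1
  exact h1

theorem hN_le_cN (s : ℕ) (u : S.A) : S.hN s u ≤ √(μ.real Set.univ) * S.cN s u := by
  induction s generalizing u with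
  | zero => exact l2_le_norm S u
  | succ s ih =>
    change S.hN s u + ∑ a, S.hN s (S.X a u) ≤ √(μ.real Set.univ) *
      (S.cN s u + ∑ a, S.cN s (S.X a u))
    rw [mul_add, Finset.mul_sum]
    gcongr with a
    · exact ih u
    · exact ih _

theorem n_le_cN (s : ℕ) (u : S.A) : (cal S hS).n s u ≤ √(μ.real Set.univ) * S.cN s u :=
  (n_le_hN S hS s u).trans (hN_le_cN S s u)

end Vale.Agent.P207.H832
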