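import Vale.Agent.P207.H832.Cal

/-!
# Interpolation and tame product estimates
-/

namespace Vale.Agent.P207.H832

open Finset

/-- discrete maximum principle for log-convex sequences -/
theorem logconvex_max (h : ℕ → ℝ) (a b : ℕ) (h0 : ∀ i, 0 ≤ h i)
    (hc : ∀ i, a < i → i < b → h i ^ 2 ≤ h (i - 1) * h (i + 1)) (i : ℕ) (hai : a ≤ i)
    (hib : i ≤ b) : h i ≤ max (h a) (h b) := by
  classical
  -- the maximum over [a, b]
  obtain ⟨m, hm, hmax⟩ := Finset.exists_max_image (Finset.Icc a b) h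
    ⟨i, Finset.mem_Icc.2 ⟨hai, hib⟩⟩
  -- the least index with this property
  have hex : ∃ j, j ∈ Finset.Icc a b ∧ h j = h m := ⟨m, hm, rfl⟩
  obtain ⟨hj, hjm⟩ := Nat.find_spec hex
  set j := Nat.find hex with hjdef
  have hmin : ∀ k, k < j → ¬ (k ∈ Finset.Icc a b ∧ h k = h m) := fun k hk =>
    Nat.find_min hex hk
  refine (hmax i (Finset.mem_Icc.2 ⟨hai, hib⟩)).trans ?_
  rw [← hjm]
  obtain ⟨haj, hjb⟩ := Finset.mem_Icc.1 hj
  rcases eq_or_lt_of_le haj with e | haj'
  · rw [← e]; exact le_max_left _ _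
  rcases eq_or_lt_of_le hjb with e | hjb'
  · rw [e]; exact le_max_right _ _
  have h1 := hc j haj' hjb'
  have h2 : h (j - 1) ≤ h j := by
    rw [hjm]; exact hmax _ (Finset.mem_Icc.2 ⟨by omega, by omega⟩)
  have h3 : h (j + 1) ≤ h j := by
    rw [hjm]; exact hmax _ (Finset.mem_Icc.2 ⟨by omega, by omega⟩)
  have h4 : h (j - 1) ≠ h j := by
    intro e
    exact hmin (j - 1) (by omega) ⟨Finset.mem_Icc.2 ⟨by omega, by omega⟩, e.trans hjm⟩
  have h5 : h (j - 1) < h j := lt_of_le_of_ne h2 h4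
  have hpos : 0 < h j := (h0 _).trans_lt h5
  exfalso
  nlinarith [h0 (j - 1), h0 (j + 1), mul_pos (sub_pos.2 h5) hpos,
    mul_nonneg (h0 (j - 1)) (sub_nonneg.2 h3)]

/-- the same with a constant -/
theorem logconvex_max_const (K : ℝ) (hK : 1 ≤ K) (h : ℕ → ℝ) (a b : ℕ) (h0 : ∀ i, 0 ≤ h i)
    (hc : ∀ i, a < i → i < b → h i ^ 2 ≤ K ^ 2 * (h (i - 1) * h (i + 1))) (i : ℕ) (hai : a ≤ i)
    (hib : i ≤ b) : h i ≤ K ^ (b ^ 2) * (h a + h b) := by
  have hK0 : 0 < K := by linarith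
  have key := logconvex_max (fun i => K ^ (i ^ 2) * h i) a b (fun i => by
    have := h0 i; positivity) (by
    intro i hai hib
    obtain ⟨j, rfl⟩ : ∃ j, i = j + 1 := ⟨i - 1, by omega⟩
    have h1 := hc (j + 1) hai hib
    simp only [Nat.add_sub_cancel] at h1 ⊢
    calc (K ^ ((j + 1) ^ 2) * h (j + 1)) ^ 2 = K ^ (2 * (j + 1) ^ 2) * h (j + 1) ^ 2 := by ring
      _ ≤ K ^ (2 * (j + 1) ^ 2) * (K ^ 2 * (h j * h (j + 1 + 1))) := by gcongr
      _ = K ^ (j ^ 2) * h j * (K ^ ((j + 1 + 1) ^ 2) * h (j + 1 + 1)) := by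
        have : K ^ (2 * (j + 1) ^ 2) * K ^ 2 = K ^ (j ^ 2) * K ^ ((j + 1 + 1) ^ 2) := by
          rw [← pow_add, ← pow_add]
          congr 1
          ring
        linear_combination (h j * h (j + 1 + 1)) * this) i hai hib
  have h1 : h i ≤ K ^ (i ^ 2) * h i := by
    have : 1 ≤ K ^ (i ^ 2) := one_le_pow₀ hK
    nlinarith [h0 i]
  refine h1.trans (key.trans ?_)
  rw [max_le_iff]
  have hab : K ^ (a ^ 2) ≤ K ^ (b ^ 2) := by
    apply pow_le_pow_right₀ hK
    have : a ≤ b := hai.trans hib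
    gcongr
  constructor
  · calc K ^ (a ^ 2) * h a ≤ K ^ (b ^ 2) * h a := by
          have := h0 a
          gcongr
      _ ≤ K ^ (b ^ 2) * (h a + h b) := by
          have := h0 b
          gcongr
          linarith
  · have := h0 a
    gcongr
    linarith

/-- interpolation between two sequences -/
theorem interp_two (K : ℝ) (hK : 1 ≤ K) (f g : ℕ → ℝ) (hf : ∀ i, 0 ≤ f i) (hg : ∀ i, 0 ≤ g i)
    (m a b : ℕ) (hbm : b ≤ m)
    (hfc : ∀ i, i + 2 ≤ m → f (i + 1) ^ 2 ≤ K * (f i * f (i + 2)))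
    (hgc : ∀ i, i + 2 ≤ m → g (i + 1) ^ 2 ≤ K * (g i * g (i + 2)))
    (i : ℕ) (hai : a ≤ i) (hib : i ≤ b) :
    f i * g (m - i) ≤ K ^ (b ^ 2) * (f a * g (m - a) + f b * g (m - b)) := by
  refine logconvex_max_const K hK (fun i => f i * g (m - i)) a b
    (fun i => mul_nonneg (hf _) (hg _)) ?_ i hai hib
  intro i hai hib
  obtain ⟨j, rfl⟩ : ∃ j, i = j + 1 := ⟨i - 1, by omega⟩
  obtain ⟨l, hl⟩ : ∃ l, m = j + 2 + l := ⟨m - (j + 2), by omega⟩
  have e1 : m - (j + 1) = l + 1 := by omega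
  have e2 : m - j = l + 2 := by omega
  have e3 : m - (j + 1 + 1) = l := by omega
  simp only [Nat.add_sub_cancel, e1, e2, e3]
  have h1 := hfc j (by omega)
  have h2 := hgc l (by omega)
  calc (f (j + 1) * g (l + 1)) ^ 2 = f (j + 1) ^ 2 * g (l + 1) ^ 2 := by ring
    _ ≤ (K * (f j * f (j + 2))) * (K * (g l * g (l + 2))) := by
      have := hf j
      have := hf (j + 2)
      gcongr
    _ = K ^ 2 * (f j * g (l + 2) * (f (j + 1 + 1) * g l)) := by ring

namespace Cal

variable {A κ : Type*} [CommRing A] [Algebra ℝ A] [Fintype κ] (S : Cal A κ)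

/-- constant of the convexity estimate up to order `m` -/
noncomputable def KK (m : ℕ) : ℝ := ((1 : ℝ) + Fintype.card κ) ^ m

theorem one_le_KK (_S : Cal A κ) (m : ℕ) : (1 : ℝ) ≤ KK (κ := κ) m := by
  apply one_le_pow₀
  have : (0 : ℝ) ≤ Fintype.card κ := Nat.cast_nonneg _
  linarith

theorem n_conv (m : ℕ) (u : A) (i : ℕ) (hi : i + 2 ≤ m) :
    S.n (i + 1) u ^ 2 ≤ KK (κ := κ) m * (S.n i u * S.n (i + 2) u) := by
  refine (S.n_log_convex i u).trans ?_
  have h1 := S.n_nonneg i u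
  have h2 := S.n_nonneg (i + 2) u
  unfold KK
  have : (1 : ℝ) ≤ 1 + Fintype.card κ := by
    have : (0 : ℝ) ≤ Fintype.card κ := Nat.cast_nonneg _
    linarith
  gcongr
  omega

/-- interpolation for two functions: `n i w * n j u` with `i + j = m` is controlled by the end
points `(a, m - a)`, `(b, m - b)`, `a ≤ i ≤ b`. -/
theorem n_interp (m a b : ℕ) (hbm : b ≤ m) :
    ∃ C : ℝ, 0 ≤ C ∧ ∀ (w u : A) (i j : ℕ), i + j = m → a ≤ i → i ≤ b →
      S.n i w * S.n j u ≤ C * (S.n a w * S.n (m - a) u + S.n b w * S.n (m - b) u) := by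
  have hK := S.one_le_KK m
  refine ⟨KK (κ := κ) m ^ (b ^ 2), by positivity, ?_⟩
  intro w u i j hij hai hib
  have := interp_two (KK (κ := κ) m) hK (fun i => S.n i w) (fun i => S.n i u)
    (fun i => S.n_nonneg _ _) (fun i => S.n_nonneg _ _) m a b hbm
    (fun i hi => S.n_conv m w i hi) (fun i hi => S.n_conv m u i hi) i hai hib
  have e : m - i = j := by omega
  simp only [e] at this
  exact this

/-- the interpolation inequality `|u|_r^8 ≤ C |u|_0^7 |u|_{8r}` -/
theorem n_interp_eight (r : ℕ) : ∃ C : ℝ, 0 ≤ C ∧ ∀ u : A,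
    S.n r u ^ 8 ≤ C * S.n 0 u ^ 7 * S.n (8 * r) u := by
  have step : ∀ r : ℕ, ∃ C : ℝ, 0 ≤ C ∧ ∀ u : A, S.n r u ^ 2 ≤ C * (S.n 0 u * S.n (2 * r) u) := by
    intro r
    obtain ⟨C, hC, h⟩ := S.n_interp (2 * r) 0 (2 * r) le_rfl
    refine ⟨2 * C, by positivity, fun u => ?_⟩
    have := h u u r r (by ring) (Nat.zero_le _) (by omega)
    simp only [Nat.sub_zero, Nat.sub_self] at this
    nlinarith [this]
  obtain ⟨C1, hC1, h1⟩ := step r
  obtain ⟨C2, hC2, h2⟩ := step (2 * r)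
  obtain ⟨C3, hC3, h3⟩ := step (2 * (2 * r))
  refine ⟨C1 ^ 4 * C2 ^ 2 * C3, by positivity, fun u => ?_⟩
  have n0 := S.n_nonneg 0 u
  have n1 := S.n_nonneg (2 * r) u
  have n2 := S.n_nonneg (2 * (2 * r)) u
  have e8 : 2 * (2 * (2 * r)) = 8 * r := by ring
  have h3' := h3 u
  rw [e8] at h3'
  calc S.n r u ^ 8 = (S.n r u ^ 2) ^ 4 := by ring
    _ ≤ (C1 * (S.n 0 u * S.n (2 * r) u)) ^ 4 := by
      gcongr
      exact h1 u
    _ = C1 ^ 4 * S.n 0 u ^ 4 * (S.n (2 * r) u ^ 2) ^ 2 := by ring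
    _ ≤ C1 ^ 4 * S.n 0 u ^ 4 * (C2 * (S.n 0 u * S.n (2 * (2 * r)) u)) ^ 2 := by
      gcongr
      exact h2 u
    _ = C1 ^ 4 * C2 ^ 2 * S.n 0 u ^ 6 * S.n (2 * (2 * r)) u ^ 2 := by ring
    _ ≤ C1 ^ 4 * C2 ^ 2 * S.n 0 u ^ 6 * (C3 * (S.n 0 u * S.n (8 * r) u)) := by
      gcongr
    _ = C1 ^ 4 * C2 ^ 2 * C3 * S.n 0 u ^ 7 * S.n (8 * r) u := by ring

/-- the elementary two-index bound -/
noncomputable def T (i j : ℕ) (w u : A) : ℝ :=
  min (S.n (i + S.D) w * S.n j u) (S.n i w * S.n (j + S.D) u)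

theorem T_nonneg (i j : ℕ) (w u : A) : 0 ≤ S.T i j w u :=
  le_min (mul_nonneg (S.n_nonneg _ _) (S.n_nonneg _ _))
    (mul_nonneg (S.n_nonneg _ _) (S.n_nonneg _ _))

theorem T_mono {i j i' j' : ℕ} (hi : i ≤ i') (hj : j ≤ j') (w u : A) :
    S.T i j w u ≤ S.T i' j' w u := by
  unfold T
  apply min_le_min
  · have := S.n_nonneg (i + S.D) w
    have := S.n_nonneg j u
    have := S.n_nonneg (i' + S.D) w
    gcongr
    · exact S.n_mono (by omega) w
    · exact S.n_mono (by omega) u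
  · have := S.n_nonneg i w
    have := S.n_nonneg (j + S.D) u
    have := S.n_nonneg i' w
    gcongr
    · exact S.n_mono (by omega) w
    · exact S.n_mono (by omega) u

theorem T_X_left (i j : ℕ) (a : κ) (w u : A) : S.T i j (S.X a w) u ≤ S.T (i + 1) j w u := by
  unfold T
  apply min_le_min
  · have := S.n_nonneg j u
    gcongr
    have := S.n_X_le (i + S.D) a w
    rwa [show i + S.D + 1 = i + 1 + S.D by ring] at this
  · have := S.n_nonneg (j + S.D) u
    gcongr
    exact S.n_X_le i a w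

theorem T_X_right (i j : ℕ) (a : κ) (w u : A) : S.T i j w (S.X a u) ≤ S.T i (j + 1) w u := by
  unfold T
  apply min_le_min
  · have := S.n_nonneg (i + S.D) w
    gcongr
    exact S.n_X_le j a u
  · have := S.n_nonneg i w
    gcongr
    have := S.n_X_le (j + S.D) a u
    rwa [show j + S.D + 1 = j + 1 + S.D by ring] at this

theorem p_le (u : A) : S.p u ≤ S.CS * S.n S.D u := by
  refine abs_le_of_sq_le_sq' ?_ (mul_nonneg S.CS_nonneg (S.n_nonneg _ _)) |>.2
  rw [mul_pow, n_sq]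
  exact S.sob u

theorem n_zero_mul_le (w u : A) : S.n 0 (w * u) ≤ S.p w * S.n 0 u := by
  refine abs_le_of_sq_le_sq' ?_ (mul_nonneg (S.p_nonneg _) (S.n_nonneg _ _)) |>.2
  rw [mul_pow, n_sq, n_sq]
  exact S.I_mul w u

theorem n_zero_mul_le_T (w u : A) : S.n 0 (w * u) ≤ S.CS * S.T 0 0 w u := by
  unfold T
  rw [mul_min_of_nonneg _ _ S.CS_nonneg]
  apply le_min
  · refine (S.n_zero_mul_le w u).trans ?_
    have h1 := S.p_le w
    have h2 := S.n_nonneg 0 u
    calc S.p w * S.n 0 u ≤ (S.CS * S.n S.D w) * S.n 0 u := by gcongr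
      _ = S.CS * (S.n (0 + S.D) w * S.n 0 u) := by rw [zero_add]; ring
  · rw [mul_comm w u]
    refine (S.n_zero_mul_le u w).trans ?_
    have h1 := S.p_le u
    have h2 := S.n_nonneg 0 w
    calc S.p u * S.n 0 w ≤ (S.CS * S.n S.D u) * S.n 0 w := by gcongr
      _ = S.CS * (S.n 0 w * S.n (0 + S.D) u) := by rw [zero_add]; ring

/-- Leibniz: `|w u|_s ≤ C ∑_{i ≤ s} T i (s - i)` -/
theorem n_mul_le_T (s : ℕ) : ∃ C : ℝ, 0 ≤ C ∧ ∀ w u : A,
    S.n s (w * u) ≤ C * ∑ i ∈ Finset.range (s + 1), S.T i (s - i) w u := by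
  induction s with
  | zero =>
    refine ⟨S.CS, S.CS_nonneg, fun w u => ?_⟩
    simpa using S.n_zero_mul_le_T w u
  | succ s ih =>
    obtain ⟨C, hC, h⟩ := ih
    refine ⟨C * (1 + Fintype.card κ * 2), by positivity, fun w u => ?_⟩
    set Sg := ∑ i ∈ Finset.range (s + 1 + 1), S.T i (s + 1 - i) w u with hSg
    -- three comparison facts
    have h0 : ∑ i ∈ Finset.range (s + 1), S.T i (s - i) w u ≤ Sg := by
      rw [hSg, Finset.sum_range_succ _ (s + 1)]
      have h1 := S.T_nonneg (s + 1) (s + 1 - (s + 1)) w u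
      have h2 : ∑ i ∈ Finset.range (s + 1), S.T i (s - i) w u
          ≤ ∑ i ∈ Finset.range (s + 1), S.T i (s + 1 - i) w u :=
        Finset.sum_le_sum fun i _ => S.T_mono le_rfl (by omega) w u
      linarith
    have h1 : ∀ a, ∑ i ∈ Finset.range (s + 1), S.T i (s - i) (S.X a w) u ≤ Sg := by
      intro a
      rw [hSg, Finset.sum_range_succ' _ (s + 1)]
      have h1 := S.T_nonneg 0 (s + 1 - 0) w u
      have h2 : ∑ i ∈ Finset.range (s + 1), S.T i (s - i) (S.X a w) u
          ≤ ∑ i ∈ Finset.range (s + 1), S.T (i + 1) (s + 1 - (i + 1)) w u := by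
        refine Finset.sum_le_sum fun i _ => ?_
        rw [show s + 1 - (i + 1) = s - i by omega]
        exact S.T_X_left _ _ _ _ _
      linarith
    have h2 : ∀ a, ∑ i ∈ Finset.range (s + 1), S.T i (s - i) w (S.X a u) ≤ Sg := by
      intro a
      rw [hSg, Finset.sum_range_succ _ (s + 1)]
      have h1 := S.T_nonneg (s + 1) (s + 1 - (s + 1)) w u
      have h2 : ∑ i ∈ Finset.range (s + 1), S.T i (s - i) w (S.X a u)
          ≤ ∑ i ∈ Finset.range (s + 1), S.T i (s + 1 - i) w u := by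
        refine Finset.sum_le_sum fun i hi => ?_
        have hi' := Finset.mem_range.1 hi
        rw [show s + 1 - i = s - i + 1 by omega]
        exact S.T_X_right _ _ _ _ _
      linarith
    refine (S.n_succ_le s (w * u)).trans ?_
    have h3 : ∀ a, S.n s (S.X a (w * u)) ≤ C * (2 * Sg) := by
      intro a
      rw [S.leib]
      refine (S.n_add_le _ _ _).trans ?_
      have e1 := (h (S.X a w) u).trans (mul_le_mul_of_nonneg_left (h1 a) hC)
      have e2 := (h w (S.X a u)).trans (mul_le_mul_of_nonneg_left (h2 a) hC)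
      linarith
    calc S.n s (w * u) + ∑ a, S.n s (S.X a (w * u))
        ≤ C * Sg + ∑ _a : κ, C * (2 * Sg) := by
          gcongr with a
          · exact (h w u).trans (mul_le_mul_of_nonneg_left h0 hC)
          · exact h3 a
      _ = C * (1 + Fintype.card κ * 2) * Sg := by
          rw [Finset.sum_const, Finset.card_univ, nsmul_eq_mul]
          ring

/-- the tame bound for the two-index quantities with `i + j = s + l`, `i ≥ l` (`l` extra
derivatives on `w`) -/
theorem T_tame (s l : ℕ) : ∃ C : ℝ, 0 ≤ C ∧ ∀ (w u : A) (i : ℕ), i ≤ s →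
    S.T (i + l) (s - i) w u ≤
      C * (S.n (s + l) w * S.n S.D u + S.n (2 * S.D + l) w * S.n s u) := by
  -- interpolation on the line `i + j = s + l + D`
  obtain ⟨C, hC, h⟩ := S.n_interp (s + l + S.D) (S.D + l) (s + l) (by omega)
  refine ⟨C + 1, by positivity, fun w u i hi => ?_⟩
  have hD := S.n_nonneg S.D u
  have hsl := S.n_nonneg (s + l) w
  have hs := S.n_nonneg s u
  have h2D := S.n_nonneg (2 * S.D + l) w
  have hDl : S.n (S.D + l) w ≤ S.n (2 * S.D + l) w := S.n_mono (by omega) w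
  have fin : ∀ x : ℝ, x ≤ C * (S.n (S.D + l) w * S.n (s + l + S.D - (S.D + l)) u
      + S.n (s + l) w * S.n (s + l + S.D - (s + l)) u) →
      x ≤ (C + 1) * (S.n (s + l) w * S.n S.D u + S.n (2 * S.D + l) w * S.n s u) := by
    intro x hx
    rw [show s + l + S.D - (S.D + l) = s by omega,
      show s + l + S.D - (s + l) = S.D by omega] at hx
    refine hx.trans ?_
    have e1 : S.n (S.D + l) w * S.n s u + S.n (s + l) w * S.n S.D u
        ≤ S.n (s + l) w * S.n S.D u + S.n (2 * S.D + l) w * S.n s u := by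
      nlinarith [mul_le_mul_of_nonneg_right hDl hs]
    have e2 : 0 ≤ S.n (s + l) w * S.n S.D u + S.n (2 * S.D + l) w * S.n s u := by positivity
    nlinarith [mul_le_mul_of_nonneg_left e1 hC]
  by_cases hc : i + S.D ≤ s
  · refine (min_le_left _ _).trans (fin _ ?_)
    exact h w u (i + l + S.D) (s - i) (by omega) (by omega) (by omega)
  · by_cases hd : S.D ≤ i
    · refine (min_le_right _ _).trans (fin _ ?_)
      exact h w u (i + l) (s - i + S.D) (by omega) (by omega) (by omega)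
    · refine (min_le_left _ _).trans ?_
      have e1 : S.n (i + l + S.D) w * S.n (s - i) u ≤ S.n (2 * S.D + l) w * S.n s u := by
        have := S.n_nonneg (s - i) u
        gcongr
        · exact S.n_mono (by omega) w
        · exact S.n_mono (by omega) u
      have e2 : 0 ≤ S.n (s + l) w * S.n S.D u := by positivity
      have e3 : 0 ≤ S.n (2 * S.D + l) w * S.n s u := by positivity
      nlinarith [mul_nonneg hC (add_nonneg e2 e3)]

/-- **tame product estimate** -/
theorem n_mul_le (s : ℕ) : ∃ C : ℝ, 0 ≤ C ∧ ∀ w u : A,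
    S.n s (w * u) ≤ C * (S.n s w * S.n S.D u + S.n (2 * S.D) w * S.n s u) := by
  obtain ⟨C, hC, h⟩ := S.n_mul_le_T s
  obtain ⟨C', hC', h'⟩ := S.T_tame s 0
  refine ⟨C * ((s + 1) * C'), by positivity, fun w u => ?_⟩
  refine (h w u).trans ?_
  have : ∑ i ∈ Finset.range (s + 1), S.T i (s - i) w u
      ≤ ∑ _i ∈ Finset.range (s + 1), C' * (S.n s w * S.n S.D u + S.n (2 * S.D) w * S.n s u) := by
    refine Finset.sum_le_sum fun i hi => ?_
    have := h' w u i (by have := Finset.mem_range.1 hi; omega)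
    simpa using this
  rw [Finset.sum_const, Finset.card_range, nsmul_eq_mul] at this
  calc C * ∑ i ∈ Finset.range (s + 1), S.T i (s - i) w u
      ≤ C * (((s + 1 : ℕ) : ℝ) * (C' * (S.n s w * S.n S.D u + S.n (2 * S.D) w * S.n s u))) := by
        gcongr
    _ = C * ((s + 1) * C') * (S.n s w * S.n S.D u + S.n (2 * S.D) w * S.n s u) := by
        push_cast
        ring

/-- multiplication by a fixed function -/
theorem n_mul_const_le (s : ℕ) (c : A) : ∃ C : ℝ, 0 ≤ C ∧ ∀ u : A,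
    S.n s (c * u) ≤ C * S.n s u := by
  induction s generalizing c with
  | zero => exact ⟨S.p c, S.p_nonneg c, fun u => S.n_zero_mul_le c u⟩
  | succ s ih =>
    obtain ⟨C, hC, h⟩ := ih c
    choose Ca hCa ha using fun a => ih (S.X a c)
    refine ⟨C + ∑ a, (Ca a + C), by
      have : 0 ≤ ∑ a, (Ca a + C) := Finset.sum_nonneg fun a _ => add_nonneg (hCa a) hC
      positivity, fun u => ?_⟩
    refine (S.n_succ_le s (c * u)).trans ?_
    have hn := S.n_le_succ s u
    rw [add_mul, Finset.sum_mul]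
    gcongr with a
    · exact (h u).trans (by gcongr)
    · rw [S.leib]
      refine (S.n_add_le _ _ _).trans ?_
      rw [add_mul]
      gcongr
      · exact (ha a u).trans (by have := hCa a; gcongr)
      · exact (h _).trans (by
          have := S.n_X_le s a u
          gcongr)

end Cal

end Vale.Agent.P207.H832
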