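import Mathlib

/-!
# The Newton iteration of the Katok rigidity theorem, abstract part

`newton` : states `g : G` (metrics), numbers `l` (the L2 norm of `k = g - g0`), `e` (a low Sobolev
norm), `b` (a high one), `d` (the norm of the divergence `δ k`), and a relation `R` (isometric).
There is no stopping criterion: the coercivity estimate is used at every step.
-/

namespace Vale.Agent.P207.H832

/-- elementary absorption step -/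
theorem absorb {C l e e0 b d : ℝ} (hC : 1 ≤ C) (he : 0 ≤ e) (hd : 0 ≤ d)
    (interp : e ^ 8 ≤ C * l ^ 7 * b) (coer : l ^ 2 ≤ C * (e ^ 3 + d ^ 2)) (hd2 : d ≤ C * e0 ^ 2)
    (hsmall : 2 ^ 8 * C ^ 11 * (l ^ 5 * b ^ 3) ≤ 1) :
    l ^ 2 ≤ 2 * C ^ 3 * e0 ^ 4 := by
  have h1 : (2 * C * e ^ 3) ^ 8 ≤ (l ^ 2) ^ 8 := by
    have e1 : (2 * C * e ^ 3) ^ 8 = 2 ^ 8 * C ^ 8 * (e ^ 8) ^ 3 := by ring
    rw [e1]
    have h3 : 2 ^ 8 * C ^ 8 * (e ^ 8) ^ 3 ≤ 2 ^ 8 * C ^ 8 * (C * l ^ 7 * b) ^ 3 := by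
      gcongr
    have h4 : 2 ^ 8 * C ^ 8 * (C * l ^ 7 * b) ^ 3 = (2 ^ 8 * C ^ 11 * (l ^ 5 * b ^ 3)) * l ^ 16 := by
      ring
    have h5 : (2 ^ 8 * C ^ 11 * (l ^ 5 * b ^ 3)) * l ^ 16 ≤ 1 * l ^ 16 := by
      gcongr
    calc 2 ^ 8 * C ^ 8 * (e ^ 8) ^ 3 ≤ 2 ^ 8 * C ^ 8 * (C * l ^ 7 * b) ^ 3 := h3
      _ = (2 ^ 8 * C ^ 11 * (l ^ 5 * b ^ 3)) * l ^ 16 := h4
      _ ≤ 1 * l ^ 16 := h5
      _ = (l ^ 2) ^ 8 := by ring
  have h6 : 2 * C * e ^ 3 ≤ l ^ 2 := by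
    exact (pow_le_pow_iff_left₀ (by positivity) (by positivity) (by norm_num)).1 h1
  have h7 : d ^ 2 ≤ (C * e0 ^ 2) ^ 2 := by gcongr
  have h8 : C * d ^ 2 ≤ C * (C * e0 ^ 2) ^ 2 := by gcongr
  have h9 : C * (C * e0 ^ 2) ^ 2 = C ^ 3 * e0 ^ 4 := by ring
  nlinarith [h6, h8, h9, coer]

/-- one step of the iteration -/
theorem newton_step {K ε η e b l' e' b' d' : ℝ} (j : ℕ) (hK : 2 ≤ K) (hε0 : 0 < ε)
    (hε1 : K ^ 2 * ε ≤ η) (hε2 : 2 ^ 8 * K ^ 40 * ε ≤ 1)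
    (he : 0 ≤ e) (hl' : 0 ≤ l') (he' : 0 ≤ e') (hb' : 0 ≤ b') (hd' : 0 ≤ d')
    (hbj : b ≤ K ^ j * ε) (hej : e * K ^ j ≤ K * ε)
    (h1 : b' ≤ K * b) (h2 : l' ≤ K * e) (h3 : d' ≤ K * e ^ 2)
    (interp : e' ^ 8 ≤ K * l' ^ 7 * b')
    (coer : e' ≤ η → l' ^ 2 ≤ K * (e' ^ 3 + d' ^ 2)) :
    b' ≤ K ^ (j + 1) * ε ∧ e' * K ^ (j + 1) ≤ K * ε := by
  have hK0 : 0 < K := by linarith
  have hKj : 1 ≤ K ^ j := one_le_pow₀ (by linarith)
  have hK40 : (1 : ℝ) ≤ K ^ 40 := one_le_pow₀ (by linarith)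
  have hε3 : ε ≤ 1 := by nlinarith
  have he1 : e ≤ K * ε := by
    have h1 : e * 1 ≤ e * K ^ j := by gcongr
    linarith
  have hb'' : b' ≤ K ^ (j + 1) * ε := by
    calc b' ≤ K * b := h1
      _ ≤ K * (K ^ j * ε) := by gcongr
      _ = K ^ (j + 1) * ε := by ring
  -- rough bound
  have hrough : e' ^ 8 ≤ (K ^ 2 * ε) ^ 8 := by
    calc e' ^ 8 ≤ K * l' ^ 7 * b' := interp
      _ ≤ K * (K * e) ^ 7 * (K ^ (j + 1) * ε) := by gcongr
      _ = K ^ 9 * ε * (e ^ 6 * (e * K ^ j)) := by ring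
      _ ≤ K ^ 9 * ε * ((K * ε) ^ 6 * (K * ε)) := by gcongr
      _ = (K ^ 2 * ε) ^ 8 := by ring
  have heη : e' ≤ η :=
    ((pow_le_pow_iff_left₀ he' (by positivity) (by norm_num)).1 hrough).trans hε1
  have hsmall : 2 ^ 8 * K ^ 11 * (l' ^ 5 * b' ^ 3) ≤ 1 := by
    calc 2 ^ 8 * K ^ 11 * (l' ^ 5 * b' ^ 3)
        ≤ 2 ^ 8 * K ^ 11 * ((K * e) ^ 5 * (K ^ (j + 1) * ε) ^ 3) := by gcongr
      _ = 2 ^ 8 * K ^ 19 * ε ^ 3 * (e ^ 2 * (e * K ^ j) ^ 3) := by ring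
      _ ≤ 2 ^ 8 * K ^ 19 * ε ^ 3 * ((K * ε) ^ 2 * (K * ε) ^ 3) := by gcongr
      _ = 2 ^ 8 * K ^ 24 * ε * ε ^ 7 := by ring
      _ ≤ 2 ^ 8 * K ^ 40 * ε * 1 := by
        have : K ^ 24 ≤ K ^ 40 := pow_le_pow_right₀ (by linarith) (by norm_num)
        have : ε ^ 7 ≤ 1 := pow_le_one₀ hε0.le hε3
        gcongr
      _ ≤ 1 := by linarith
  have hl2 : l' ^ 2 ≤ 2 * K ^ 3 * e ^ 4 :=
    absorb (by linarith) he' hd' interp (coer heη) h3 hsmall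
  refine ⟨hb'', ?_⟩
  have hfin : (e' * K ^ (j + 1)) ^ 16 ≤ (K * ε) ^ 16 := by
    have e16 : e' ^ 16 ≤ K ^ 2 * (2 * K ^ 3 * e ^ 4) ^ 7 * (K ^ (j + 1) * ε) ^ 2 := by
      calc e' ^ 16 = (e' ^ 8) ^ 2 := by ring
        _ ≤ (K * l' ^ 7 * b') ^ 2 := by gcongr
        _ = K ^ 2 * (l' ^ 2) ^ 7 * b' ^ 2 := by ring
        _ ≤ _ := by gcongr
    calc (e' * K ^ (j + 1)) ^ 16 = e' ^ 16 * K ^ (16 * (j + 1)) := by ring
      _ ≤ (K ^ 2 * (2 * K ^ 3 * e ^ 4) ^ 7 * (K ^ (j + 1) * ε) ^ 2) * K ^ (16 * (j + 1)) := by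
        gcongr
      _ = 2 ^ 7 * K ^ 41 * ε ^ 2 * (e ^ 10 * (e * K ^ j) ^ 18) := by ring
      _ ≤ 2 ^ 7 * K ^ 41 * ε ^ 2 * ((K * ε) ^ 10 * (K * ε) ^ 18) := by gcongr
      _ = (K * ε) ^ 16 * (2 ^ 7 * K ^ 53 * (ε ^ 2 * ε ^ 12)) := by ring
      _ ≤ (K * ε) ^ 16 * (2 ^ 16 * K ^ 80 * (ε ^ 2 * 1)) := by
        have : K ^ 53 ≤ K ^ 80 := pow_le_pow_right₀ (by linarith) (by norm_num)
        have : ε ^ 12 ≤ 1 := pow_le_one₀ hε0.le hε3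
        gcongr <;> norm_num
      _ = (K * ε) ^ 16 * (2 ^ 8 * K ^ 40 * ε) ^ 2 := by ring
      _ ≤ (K * ε) ^ 16 * 1 ^ 2 := by gcongr
      _ = (K * ε) ^ 16 := by ring
  exact (pow_le_pow_iff_left₀ (by positivity) (by positivity) (by norm_num)).1 hfin

/-- **Newton iteration**: if a step `g ↦ g'` is available as long as `e g ≤ η`, tame in the high
norm `b` and quadratic in the gauge error `d`, and the coercivity estimate `l² ≤ C (e³ + d²)` holds,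
then smallness of the high norm of `g0` forces that the class of `g0` contains elements with
arbitrarily small `e`. -/
theorem newton (C η : ℝ) (hC : 1 ≤ C) (hη : 0 < η) :
    ∃ ε : ℝ, 0 < ε ∧ ∀ {G : Type*} (R : G → G → Prop) (l e b d : G → ℝ),
      (∀ g, R g g) → (∀ g g' g'', R g g' → R g' g'' → R g g'') →
      (∀ g, 0 ≤ l g) → (∀ g, 0 ≤ e g) → (∀ g, 0 ≤ b g) → (∀ g, 0 ≤ d g) →
      (∀ g, l g ≤ b g) →
      (∀ g, e g ^ 8 ≤ C * l g ^ 7 * b g) →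
      ∀ g0 : G,
      (∀ g, R g0 g → e g ≤ η → l g ^ 2 ≤ C * (e g ^ 3 + d g ^ 2)) →
      (∀ g, R g0 g → e g ≤ η → ∃ g', R g g' ∧ b g' ≤ C * b g ∧ l g' ≤ C * e g ∧
        d g' ≤ C * e g ^ 2) →
      b g0 ≤ ε → ∀ δ : ℝ, 0 < δ → ∃ g, R g0 g ∧ e g ≤ δ := by
  obtain ⟨K, hKC, hK2⟩ : ∃ K : ℝ, C ≤ K ∧ 2 ≤ K := ⟨max C 2, le_max_left _ _, le_max_right _ _⟩
  have hK0 : 0 < K := by linarith
  obtain ⟨ε, hε0, hε1, hε2⟩ : ∃ ε : ℝ, 0 < ε ∧ K ^ 2 * ε ≤ η ∧ 2 ^ 8 * K ^ 40 * ε ≤ 1 := by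
    refine ⟨min (η / K ^ 2) (1 / (2 ^ 8 * K ^ 40)), by positivity, ?_, ?_⟩
    · calc K ^ 2 * min (η / K ^ 2) (1 / (2 ^ 8 * K ^ 40)) ≤ K ^ 2 * (η / K ^ 2) := by
            gcongr; exact min_le_left _ _
        _ = η := by field_simp
    · calc 2 ^ 8 * K ^ 40 * min (η / K ^ 2) (1 / (2 ^ 8 * K ^ 40))
          ≤ 2 ^ 8 * K ^ 40 * (1 / (2 ^ 8 * K ^ 40)) := by
            gcongr; exact min_le_right _ _
        _ = 1 := by field_simp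
  refine ⟨ε, hε0, ?_⟩
  intro G R l e b d hrefl htrans hl he hb hd hlb hint g0 hcoer hstep hb0 δ hδ
  have key : ∀ j : ℕ, ∃ g, R g0 g ∧ b g ≤ K ^ j * ε ∧ e g * K ^ j ≤ K * ε := by
    intro j
    induction j with
    | zero =>
      refine ⟨g0, hrefl g0, by simpa using hb0, ?_⟩
      have h1 : e g0 ^ 8 ≤ (K * ε) ^ 8 := by
        calc e g0 ^ 8 ≤ C * l g0 ^ 7 * b g0 := hint g0
          _ ≤ K * ε ^ 7 * ε := by
            have := hl g0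
            have := hb g0
            have : l g0 ≤ ε := (hlb g0).trans hb0
            gcongr
          _ = K * ε ^ 8 := by ring
          _ ≤ K ^ 8 * ε ^ 8 := by
            have : K ≤ K ^ 8 := by
              calc K = K ^ 1 := by ring
                _ ≤ K ^ 8 := pow_le_pow_right₀ (by linarith) (by norm_num)
            gcongr
          _ = (K * ε) ^ 8 := by ring
      have := (pow_le_pow_iff_left₀ (he g0) (by positivity) (by norm_num)).1 h1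
      simpa using this
    | succ j ih =>
      obtain ⟨g, hR, hbg, heg⟩ := ih
      have hKj : 1 ≤ K ^ j := one_le_pow₀ (by linarith)
      have e0 := he g
      have b0 := hb g
      have hegη : e g ≤ η := by
        have h1 : e g * 1 ≤ e g * K ^ j := by gcongr
        have h2 : K * ε ≤ K ^ 2 * ε := by
          have : K ≤ K ^ 2 := by nlinarith
          gcongr
        linarith
      obtain ⟨g', hR', hb', hl', hd'⟩ := hstep g hR hegη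
      have hRg' := htrans _ _ _ hR hR'
      have hst := newton_step j hK2 hε0 hε1 hε2 e0 (hl g') (he g') (hb g') (hd g')
        hbg heg (hb'.trans (by gcongr)) (hl'.trans (by gcongr)) (hd'.trans (by gcongr))
        ((hint g').trans (by have := hl g'; have := hb g'; gcongr))
        (fun h => (hcoer g' hRg' h).trans (by have := he g'; have := hd g'; gcongr))
      exact ⟨g', hRg', hst.1, hst.2⟩
  -- choose j with K ε / K^j ≤ δ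
  obtain ⟨j, hj⟩ := pow_unbounded_of_one_lt (K * ε / δ) (show (1 : ℝ) < K by linarith)
  obtain ⟨g, hR, -, heg⟩ := key j
  refine ⟨g, hR, ?_⟩
  have hKj : 0 < K ^ j := by positivity
  rw [div_lt_iff₀ hδ] at hj
  have : e g * K ^ j ≤ δ * K ^ j := by nlinarith
  exact le_of_mul_le_mul_right this hKj

end Vale.Agent.P207.H832
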