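import Vale.Agent.P207.H832.Curve
import Vale.Agent.P207.H832.Seq

/-!
# One Newton step on symmetric 2-tensors over a system of flows
-/

open MeasureTheory Filter Topology Asymptotics

noncomputable section

set_option linter.unusedSectionVars false

namespace Vale.Agent.P207.H832

open H395 H571

variable {ι : Type} [Fintype ι] {N : Type} [TopologicalSpace N] [CompactSpace N]
  [MeasurableSpace N] {μ : Measure N}

section defs

variable {ν : Type} [Fintype ν] (S : NSys ι N μ) (e : ν → ι)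

/-- the Lie derivative of the metric: `L_w g0` -/
def lie (w : ν → S.A) (i j : ν) : S.A := S.X (e i) (w j) + S.X (e j) (w i)

/-- the divergence of a 2-tensor -/
def dv (k : ν → ν → S.A) (j : ν) : S.A := ∑ i, S.X (e i) (k i j)

/-- the Lie derivative of a 2-tensor -/
def lieT (w : ν → S.A) (k : ν → ν → S.A) (i j : ν) : S.A :=
  ∑ m, w m * S.X (e m) (k i j) + ∑ m, S.X (e i) (w m) * k m j + ∑ m, S.X (e j) (w m) * k i m

end defs

variable [BorelSpace N] [IsFiniteMeasure μ] {ν : Type} [Fintype ν] [DecidableEq ν]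
  (S : NSys ι N μ) (hS : S.Loc) (e : ν → ι)

/-- Sobolev norm of a 2-tensor -/
def N2 (s : ℕ) (k : ν → ν → S.A) : ℝ := (cal S hS).N s fun p : ν × ν => k p.1 p.2

theorem N2_nonneg (s : ℕ) (k : ν → ν → S.A) : 0 ≤ N2 S hS s k := (cal S hS).N_nonneg _ _

theorem N2_mono {s t : ℕ} (h : s ≤ t) (k : ν → ν → S.A) : N2 S hS s k ≤ N2 S hS t k :=
  (cal S hS).N_mono h _

theorem n_le_N2 (s : ℕ) (k : ν → ν → S.A) (i j : ν) : (cal S hS).n s (k i j) ≤ N2 S hS s k :=
  (cal S hS).n_le_N s (fun p : ν × ν => k p.1 p.2) (i, j)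

theorem N2_le_sum (s : ℕ) (k : ν → ν → S.A) : N2 S hS s k ≤ ∑ i, ∑ j, (cal S hS).n s (k i j) := by
  refine ((cal S hS).N_le_sum s _).trans (le_of_eq ?_)
  exact Fintype.sum_prod_type _

/-- the zeroth order coefficient matrix of the evolution of a pull-back -/
def zc (w : ν → S.A) (p q : ν × ν) : S.A :=
  (if q.2 = p.2 then S.X (e p.1) (w q.1) else 0) + (if q.1 = p.1 then S.X (e p.2) (w q.2) else 0)

theorem Tr_eq (w : ν → S.A) (k : ν → ν → S.A) (p : ν × ν) :
    (cal S hS).Tr e w (zc S e w) (fun p : ν × ν => k p.1 p.2) p = lieT S e w k p.1 p.2 := by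
  unfold Cal.Tr zc lieT
  have h1 : ∑ q : ν × ν, ((if q.2 = p.2 then S.X (e p.1) (w q.1) else 0)
      + (if q.1 = p.1 then S.X (e p.2) (w q.2) else 0)) * k q.1 q.2
      = ∑ m, S.X (e p.1) (w m) * k m p.2 + ∑ m, S.X (e p.2) (w m) * k p.1 m := by
    simp only [add_mul, Finset.sum_add_distrib, ite_mul, zero_mul]
    congr 1
    · rw [Fintype.sum_prod_type]
      refine Finset.sum_congr rfl fun m _ => ?_
      simp
    · rw [Fintype.sum_prod_type_right]
      refine Finset.sum_congr rfl fun m _ => ?_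
      simp
  rw [h1, ← add_assoc]
  rfl

theorem n_zc_le (s : ℕ) (w : ν → S.A) (p q : ν × ν) :
    (cal S hS).n s (zc S e w p q) ≤ 2 * (cal S hS).N (s + 1) w := by
  have h0 := (cal S hS).N_nonneg (s + 1) w
  have h : ∀ a m, (cal S hS).n s (S.X a (w m)) ≤ (cal S hS).N (s + 1) w := fun a m =>
    ((cal S hS).n_X_le s a (w m)).trans ((cal S hS).n_le_N (s + 1) w m)
  unfold zc
  refine ((cal S hS).n_add_le _ _ _).trans ?_
  have h1 : (cal S hS).n s (if q.2 = p.2 then S.X (e p.1) (w q.1) else 0)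
      ≤ (cal S hS).N (s + 1) w := by
    split_ifs
    · exact h _ _
    · rw [(cal S hS).n_zero]; exact h0
  have h2 : (cal S hS).n s (if q.1 = p.1 then S.X (e p.2) (w q.2) else 0)
      ≤ (cal S hS).N (s + 1) w := by
    split_ifs
    · exact h _ _
    · rw [(cal S hS).n_zero]; exact h0
  linarith

theorem n_lie_le (s : ℕ) (w : ν → S.A) (i j : ν) :
    (cal S hS).n s (lie S e w i j) ≤ 2 * (cal S hS).N (s + 1) w := by
  have h : ∀ a m, (cal S hS).n s (S.X a (w m)) ≤ (cal S hS).N (s + 1) w := fun a m =>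
    ((cal S hS).n_X_le s a (w m)).trans ((cal S hS).n_le_N (s + 1) w m)
  unfold lie
  refine ((cal S hS).n_add_le _ _ _).trans ?_
  have := h (e i) j
  have := h (e j) i
  linarith

theorem dv_sub (k l : ν → ν → S.A) (j : ν) :
    dv S e (fun i j => k i j - l i j) j = dv S e k j - dv S e l j := by
  unfold dv
  rw [← Finset.sum_sub_distrib]
  exact Finset.sum_congr rfl fun i _ => map_sub _ _ _

theorem dv_add (k l : ν → ν → S.A) (j : ν) :
    dv S e (fun i j => k i j + l i j) j = dv S e k j + dv S e l j := by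
  unfold dv
  rw [← Finset.sum_add_distrib]
  exact Finset.sum_congr rfl fun i _ => map_add _ _ _

theorem N_dv_le (s : ℕ) (k : ν → ν → S.A) :
    (cal S hS).N s (dv S e k) ≤ (Fintype.card ν : ℝ) ^ 2 * N2 S hS (s + 1) k := by
  refine ((cal S hS).N_le_sum s _).trans ?_
  have h : ∀ j, (cal S hS).n s (dv S e k j) ≤ Fintype.card ν * N2 S hS (s + 1) k := by
    intro j
    refine ((cal S hS).n_sum_le _ _ _).trans ?_
    calc ∑ i, (cal S hS).n s (S.X (e i) (k i j)) ≤ ∑ _i : ν, N2 S hS (s + 1) k :=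
          Finset.sum_le_sum fun i _ => ((cal S hS).n_X_le s (e i) (k i j)).trans
            (n_le_N2 S hS (s + 1) k i j)
      _ = _ := by rw [Finset.sum_const, Finset.card_univ, nsmul_eq_mul]
  calc ∑ j, (cal S hS).n s (dv S e k j) ≤ ∑ _j : ν, Fintype.card ν * N2 S hS (s + 1) k :=
        Finset.sum_le_sum fun j _ => h j
    _ = _ := by
      rw [Finset.sum_const, Finset.card_univ, nsmul_eq_mul]
      ring

/-- **one Newton step**: for the pull-back `k 1` of `k 0` under the flow of a gauge field `w` -/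
theorem newton_step_tensor (r0 : ℕ) (Cg : ℕ → ℝ) (hCg : ∀ s, 0 ≤ Cg s) (r : ℕ)
    (hr : 2 * (cal S hS).D + r0 + 3 ≤ r) :
    ∃ C η : ℝ, 1 ≤ C ∧ 0 < η ∧ ∀ (w : ν → S.A) (k : ℝ → ν → ν → S.A),
      (∀ t ∈ Set.Icc (0 : ℝ) 1, ∀ i j, (cal S hS).HasD (fun t => k t i j)
        (lieT S e w (k t) i j + lie S e w i j) t) →
      (∀ s, (cal S hS).N (s + 1) w ≤ Cg s * N2 S hS s (k 0)) →
      (∀ j, dv S e (fun i j => k 0 i j + lie S e w i j) j = 0) →
      N2 S hS r (k 0) ≤ η →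
      N2 S hS (8 * r) (k 1) ≤ C * N2 S hS (8 * r) (k 0) ∧
      N2 S hS 0 (k 1) ≤ C * N2 S hS r (k 0) ∧
      (cal S hS).N r0 (dv S e (k 1)) ≤ C * N2 S hS r (k 0) ^ 2 := by
  set Q := cal S hS with hQ
  obtain ⟨C1, hC1, h1⟩ := Q.transport_tame (ι := ν × ν) e (8 * r) (fun _ => 2) (fun _ => by norm_num)
  obtain ⟨C2, hC2, h2⟩ := Q.transport_tame (ι := ν × ν) e r (fun _ => 2) (fun _ => by norm_num)
  obtain ⟨C3, hC3, h3⟩ := Q.transport_quadratic (ι := ν × ν) e (r0 + 1) (fun _ => 2)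
    (fun _ => by norm_num)
  -- constants
  set G : ℝ := Cg (8 * r) + Cg r + Cg (2 * Q.D) + Cg (Q.D + 1) + Cg (r0 + 1) + Cg (r0 + 2)
    + 1 with hG
  have g1 := hCg (8 * r)
  have g2 := hCg r
  have g3 := hCg (2 * Q.D)
  have g4 := hCg (Q.D + 1)
  have g5 := hCg (r0 + 1)
  have g6 := hCg (r0 + 2)
  have hG1 : 1 ≤ G := by rw [hG]; linarith
  set C : ℝ := 1 + C1 * (1 + G) + C2 * (1 + G) + (Fintype.card ν : ℝ) ^ 2 * C3 * (2 * G * (1 + G))
    with hC
  have hpos1 : 0 ≤ C1 * (1 + G) := by positivity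
  have hpos2 : 0 ≤ C2 * (1 + G) := by positivity
  have hpos3 : 0 ≤ (Fintype.card ν : ℝ) ^ 2 * C3 * (2 * G * (1 + G)) := by positivity
  refine ⟨C, 1 / G, by rw [hC]; linarith, by positivity, fun w k hk hg hdiv hη => ?_⟩
  set E := N2 S hS r (k 0) with hE
  have hE0 : 0 ≤ E := N2_nonneg S hS r (k 0)
  have hE1 : E ≤ 1 := hη.trans (by rw [div_le_one (by linarith)]; exact hG1)
  have hGE : G * E ≤ 1 := by
    calc G * E ≤ G * (1 / G) := by gcongr
      _ = 1 := by field_simp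
  -- w bounds
  have hwE : ∀ s, s ≤ r → Cg s ≤ G → Q.N (s + 1) w ≤ G * E := by
    intro s hs hCs
    refine (hg s).trans ?_
    have := N2_mono S hS hs (k 0)
    have := N2_nonneg S hS s (k 0)
    have := hCg s
    gcongr
  have hw1 : Q.N (2 * Q.D + 1) w ≤ G * E := hwE _ (by omega) (by rw [hG]; linarith)
  have hw1' : Q.N (2 * Q.D + 1) w ≤ 1 := hw1.trans hGE
  have hk0 : Q.N Q.D (fun p : ν × ν => k 0 p.1 p.2) ≤ 1 :=
    (N2_mono S hS (by omega : Q.D ≤ r) (k 0)).trans hE1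
  have hz : ∀ s p q, Q.n s (zc S e w p q) ≤ 2 * Q.N (s + 1) w := fun s p q => n_zc_le S hS e s w p q
  have hs : ∀ s (p : ν × ν), Q.n s (lie S e w p.1 p.2) ≤ 2 * Q.N (s + 1) w := fun s p =>
    n_lie_le S hS e s w p.1 p.2
  have hev : ∀ t ∈ Set.Icc (0 : ℝ) 1, ∀ p : ν × ν, Q.HasD (fun t => k t p.1 p.2)
      (Q.Tr e w (zc S e w) (fun p : ν × ν => k t p.1 p.2) p + lie S e w p.1 p.2) t := by
    intro t ht p
    rw [hQ, Tr_eq]
    exact hk t ht p.1 p.2
  have mem1 : (1 : ℝ) ∈ Set.Icc (0 : ℝ) 1 := ⟨zero_le_one, le_rfl⟩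
  refine ⟨?_, ?_, ?_⟩
  · have := h1 w (zc S e w) (fun p => lie S e w p.1 p.2) (fun t p => k t p.1 p.2) hz hs hw1' hk0
      hev 1 mem1
    change N2 S hS (8 * r) (k 1) ≤ _ at this
    have hb := N2_nonneg S hS (8 * r) (k 0)
    calc N2 S hS (8 * r) (k 1)
        ≤ C1 * (N2 S hS (8 * r) (k 0) + Q.N (8 * r + 1) w) := this
      _ ≤ C1 * (N2 S hS (8 * r) (k 0) + G * N2 S hS (8 * r) (k 0)) := by
        have h5 : Q.N (8 * r + 1) w ≤ G * N2 S hS (8 * r) (k 0) := by
          refine (hg (8 * r)).trans ?_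
          gcongr
          rw [hG]; linarith
        gcongr
      _ = C1 * (1 + G) * N2 S hS (8 * r) (k 0) := by ring
      _ ≤ C * N2 S hS (8 * r) (k 0) := by
        gcongr
        rw [hC]; linarith
  · have := h2 w (zc S e w) (fun p => lie S e w p.1 p.2) (fun t p => k t p.1 p.2) hz hs hw1' hk0
      hev 1 mem1
    change N2 S hS r (k 1) ≤ _ at this
    calc N2 S hS 0 (k 1) ≤ N2 S hS r (k 1) := N2_mono S hS (Nat.zero_le _) _
      _ ≤ C2 * (E + Q.N (r + 1) w) := this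
      _ ≤ C2 * (E + G * E) := by
        have h5 : Q.N (r + 1) w ≤ G * E := hwE r le_rfl (by rw [hG]; linarith)
        gcongr
      _ = C2 * (1 + G) * E := by ring
      _ ≤ C * E := by
        gcongr
        rw [hC]; linarith
  · have := h3 w (zc S e w) (fun p => lie S e w p.1 p.2) (fun t p => k t p.1 p.2) hz hs hw1' hk0
      hev
    -- the divergence only sees the quadratic error
    have hd : dv S e (k 1) = dv S e (fun i j => k 1 i j - k 0 i j - lie S e w i j) := by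
      funext j
      have e1 : dv S e (fun i j => k 1 i j - k 0 i j - lie S e w i j) j
          = dv S e (k 1) j - dv S e (fun i j => k 0 i j + lie S e w i j) j := by
        rw [← dv_sub]
        congr 1
        funext i j
        abel
      rw [e1, hdiv j, sub_zero]
    rw [hd]
    refine (N_dv_le S hS e r0 _).trans ?_
    have h4 : N2 S hS (r0 + 1) (fun i j => k 1 i j - k 0 i j - lie S e w i j)
        ≤ C3 * (2 * G * (1 + G) * E ^ 2) := by
      refine le_trans this ?_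
      refine mul_le_mul_of_nonneg_left ?_ hC3
      have a1 : Q.N (r0 + 1 + 1) w ≤ G * E := hwE (r0 + 1) (by omega) (by rw [hG]; linarith)
      have a2 : Q.N (Q.D + 1) (fun p : ν × ν => k 0 p.1 p.2) ≤ E :=
        N2_mono S hS (by omega : Q.D + 1 ≤ r) (k 0)
      have a3 : Q.N (Q.D + 2) w ≤ G * E := hwE (Q.D + 1) (by omega) (by rw [hG]; linarith)
      have a4 : Q.N (r0 + 1 + 1) (fun p : ν × ν => k 0 p.1 p.2) ≤ E :=
        N2_mono S hS (by omega : r0 + 1 + 1 ≤ r) (k 0)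
      have a5 : Q.N (r0 + 1 + 2) w ≤ G * E := hwE (r0 + 2) (by omega) (by rw [hG]; linarith)
      have b1 := Q.N_nonneg (r0 + 1 + 1) w
      have b2 := Q.N_nonneg (Q.D + 1) (fun p : ν × ν => k 0 p.1 p.2)
      have b3 := Q.N_nonneg (Q.D + 2) w
      have b4 := Q.N_nonneg (r0 + 1 + 1) (fun p : ν × ν => k 0 p.1 p.2)
      have b5 := Q.N_nonneg (r0 + 1 + 2) w
      have b6 := Q.N_nonneg (2 * Q.D + 1) w
      calc Q.N (r0 + 1 + 1) w * (Q.N (Q.D + 1) (fun p : ν × ν => k 0 p.1 p.2) + Q.N (Q.D + 2) w)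
          + Q.N (2 * Q.D + 1) w * (Q.N (r0 + 1 + 1) (fun p : ν × ν => k 0 p.1 p.2)
            + Q.N (r0 + 1 + 2) w)
          ≤ (G * E) * (E + G * E) + (G * E) * (E + G * E) := by gcongr
        _ = 2 * G * (1 + G) * E ^ 2 := by ring
    calc (Fintype.card ν : ℝ) ^ 2 * N2 S hS (r0 + 1)
          (fun i j => k 1 i j - k 0 i j - lie S e w i j)
        ≤ (Fintype.card ν : ℝ) ^ 2 * (C3 * (2 * G * (1 + G) * E ^ 2)) := by gcongr
      _ = (Fintype.card ν : ℝ) ^ 2 * C3 * (2 * G * (1 + G)) * E ^ 2 := by ring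
      _ ≤ C * E ^ 2 := by
        gcongr
        rw [hC]; linarith

/-- the interpolation inequality for 2-tensors -/
theorem N2_interp_eight (r : ℕ) : ∃ C : ℝ, 0 ≤ C ∧ ∀ k : ν → ν → S.A,
    N2 S hS r k ^ 8 ≤ C * N2 S hS 0 k ^ 7 * N2 S hS (8 * r) k := by
  obtain ⟨C, hC, h⟩ := (cal S hS).n_interp_eight r
  refine ⟨(Fintype.card (ν × ν) : ℝ) ^ 8 * C, by positivity, fun k => ?_⟩
  have a0 := N2_nonneg S hS r k
  have a1 := N2_nonneg S hS 0 k
  have a2 := N2_nonneg S hS (8 * r) k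
  -- a component realising the maximum
  rcases isEmpty_or_nonempty (ν × ν) with hemp | hne
  · have : N2 S hS r k = 0 := by
      unfold N2 Cal.N
      rw [Finset.univ_eq_empty, Finset.sum_empty, Real.sqrt_zero]
    rw [this, zero_pow (by norm_num)]
    positivity
  · obtain ⟨p, -, hp⟩ := Finset.exists_max_image Finset.univ
      (fun p : ν × ν => (cal S hS).n r (k p.1 p.2)) Finset.univ_nonempty
    have h1 : N2 S hS r k ≤ Fintype.card (ν × ν) * (cal S hS).n r (k p.1 p.2) := by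
      refine ((cal S hS).N_le_sum r _).trans ?_
      calc ∑ q : ν × ν, (cal S hS).n r (k q.1 q.2)
          ≤ ∑ _q : ν × ν, (cal S hS).n r (k p.1 p.2) :=
            Finset.sum_le_sum fun q _ => hp q (Finset.mem_univ q)
        _ = _ := by rw [Finset.sum_const, Finset.card_univ, nsmul_eq_mul]
    have h2 := h (k p.1 p.2)
    have h3 := n_le_N2 S hS 0 k p.1 p.2
    have h4 := n_le_N2 S hS (8 * r) k p.1 p.2
    have h5 := (cal S hS).n_nonneg 0 (k p.1 p.2)
    have h6 := (cal S hS).n_nonneg (8 * r) (k p.1 p.2)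
    have h7 := (cal S hS).n_nonneg r (k p.1 p.2)
    calc N2 S hS r k ^ 8 ≤ (Fintype.card (ν × ν) * (cal S hS).n r (k p.1 p.2)) ^ 8 := by gcongr
      _ = (Fintype.card (ν × ν) : ℝ) ^ 8 * (cal S hS).n r (k p.1 p.2) ^ 8 := by ring
      _ ≤ (Fintype.card (ν × ν) : ℝ) ^ 8 * (C * (cal S hS).n 0 (k p.1 p.2) ^ 7 *
          (cal S hS).n (8 * r) (k p.1 p.2)) := by gcongr
      _ ≤ (Fintype.card (ν × ν) : ℝ) ^ 8 * (C * N2 S hS 0 k ^ 7 * N2 S hS (8 * r) k) := by gcongr
      _ = _ := by ring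

end Vale.Agent.P207.H832
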