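import Vale.Agent.P207.H832.Energy

/-!
# Transport systems `k' = w·Xk + z k + src`: tame estimate and quadratic error
-/

namespace Vale.Agent.P207.H832

open Finset

namespace Cal

variable {A κ : Type*} [CommRing A] [Algebra ℝ A] [Fintype κ] (S : Cal A κ)
variable {μ ι : Type*} [Fintype μ] [Fintype ι] (e : μ → κ)

/-- the linear transport operator -/
def Tr (w : μ → A) (z : ι → ι → A) (v : ι → A) (i : ι) : A :=
  ∑ m, w m * S.X (e m) (v i) + ∑ j, z i j * v j

/-- the energy inequality -/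
theorem energy_ineq (s : ℕ) : ∃ C : ℝ, 0 ≤ C ∧ ∀ (w : μ → A) (z : ι → ι → A) (src v : ι → A)
    (a b : ℝ), (∀ i j, S.n s (z i j) ≤ a) → (∀ i j, S.n (2 * S.D) (z i j) ≤ b) →
    (∀ i, S.n s (src i) ≤ a) → S.N (s + 1) w ≤ a → S.N (2 * S.D + 1) w ≤ b →
    ∑ i, 2 * S.B s (v i) (S.Tr e w z v i + src i) ≤
      C * (S.N s v * (a * S.N S.D v + b * S.N s v + a)) := by
  obtain ⟨C1, hC1, h1⟩ := S.B_transport s
  obtain ⟨C2, hC2, h2⟩ := S.n_mul_le s
  refine ⟨Fintype.card ι * (2 * (Fintype.card μ * C1 + Fintype.card ι * C2 + 1)), by positivity,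
    fun w z src v a b hz1 hz2 hs hw1 hw2 => ?_⟩
  have hNs := S.N_nonneg s v
  have hND := S.N_nonneg S.D v
  have ha : 0 ≤ a := (S.N_nonneg _ _).trans hw1
  have hb : 0 ≤ b := (S.N_nonneg _ _).trans hw2
  set Q := S.N s v * (a * S.N S.D v + b * S.N s v + a) with hQ
  have hi : ∀ i, 2 * S.B s (v i) (S.Tr e w z v i + src i)
      ≤ 2 * (Fintype.card μ * C1 + Fintype.card ι * C2 + 1) * Q := by
    intro i
    have hni := S.n_le_N s v i
    have hnDi := S.n_le_N S.D v i
    have hn0 := S.n_nonneg s (v i)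
    unfold Tr
    rw [B_add_right, B_add_right, B_sum_right, B_sum_right]
    have t1 : ∑ m, S.B s (v i) (w m * S.X (e m) (v i)) ≤ ∑ _m : μ, C1 * Q := by
      refine Finset.sum_le_sum fun m _ => ?_
      refine (le_abs_self _).trans ((h1 (e m) (w m) (v i)).trans ?_)
      have g1 := (S.n_le_N (s + 1) w m).trans hw1
      have g2 := (S.n_le_N (2 * S.D + 1) w m).trans hw2
      have g3 := S.n_nonneg (s + 1) (w m)
      have g4 := S.n_nonneg (2 * S.D + 1) (w m)
      have g5 := S.n_nonneg S.D (v i)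
      rw [hQ]
      have g6 : S.n (s + 1) (w m) * S.n S.D (v i) + S.n (2 * S.D + 1) (w m) * S.n s (v i)
          ≤ a * S.N S.D v + b * S.N s v + a := by
        calc S.n (s + 1) (w m) * S.n S.D (v i) + S.n (2 * S.D + 1) (w m) * S.n s (v i)
            ≤ a * S.N S.D v + b * S.N s v := by gcongr
          _ ≤ a * S.N S.D v + b * S.N s v + a := by linarith
      exact mul_le_mul_of_nonneg_left (mul_le_mul hni g6 (by positivity) hNs) hC1
    have t2 : ∑ j, S.B s (v i) (z i j * v j) ≤ ∑ _j : ι, C2 * Q := by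
      refine Finset.sum_le_sum fun j _ => ?_
      refine (le_abs_self _).trans ((S.abs_B_le s _ _).trans ?_)
      have g1 := hz1 i j
      have g2 := hz2 i j
      have g3 := S.n_nonneg s (z i j)
      have g4 := S.n_nonneg (2 * S.D) (z i j)
      have g5 := S.n_nonneg S.D (v j)
      have g6 := S.n_le_N S.D v j
      have g7 := S.n_le_N s v j
      have g8 := S.n_nonneg s (v j)
      have g9 : S.n s (z i j * v j) ≤ C2 * (a * S.N S.D v + b * S.N s v + a) := by
        refine (h2 _ _).trans (mul_le_mul_of_nonneg_left ?_ hC2)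
        calc S.n s (z i j) * S.n S.D (v j) + S.n (2 * S.D) (z i j) * S.n s (v j)
            ≤ a * S.N S.D v + b * S.N s v := by gcongr
          _ ≤ a * S.N S.D v + b * S.N s v + a := by linarith
      have g10 := S.n_nonneg s (z i j * v j)
      calc S.n s (v i) * S.n s (z i j * v j)
          ≤ S.N s v * (C2 * (a * S.N S.D v + b * S.N s v + a)) := by gcongr
        _ = C2 * Q := by rw [hQ]; ring
    have t3 : S.B s (v i) (src i) ≤ Q := by
      refine (le_abs_self _).trans ((S.abs_B_le s _ _).trans ?_)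
      have g1 := hs i
      have g2 := S.n_nonneg s (src i)
      have g3 : 0 ≤ a * S.N S.D v + b * S.N s v := by positivity
      rw [hQ]
      gcongr
      linarith
    rw [Finset.sum_const, Finset.card_univ, nsmul_eq_mul] at t1 t2
    nlinarith [t1, t2, t3]
  calc ∑ i, 2 * S.B s (v i) (S.Tr e w z v i + src i)
      ≤ ∑ _i : ι, 2 * (Fintype.card μ * C1 + Fintype.card ι * C2 + 1) * Q :=
        Finset.sum_le_sum fun i _ => hi i
    _ = _ := by
      rw [Finset.sum_const, Finset.card_univ, nsmul_eq_mul]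
      ring

/-- **tame energy estimate** for transport systems -/
theorem transport_tame (s : ℕ) (Cz : ℕ → ℝ) (hCz : ∀ s, 0 ≤ Cz s) : ∃ C : ℝ, 0 ≤ C ∧
    ∀ (w : μ → A) (z : ι → ι → A) (src : ι → A) (k : ℝ → ι → A),
    (∀ s i j, S.n s (z i j) ≤ Cz s * S.N (s + 1) w) →
    (∀ s i, S.n s (src i) ≤ Cz s * S.N (s + 1) w) →
    S.N (2 * S.D + 1) w ≤ 1 → S.N S.D (k 0) ≤ 1 →
    (∀ t ∈ Set.Icc (0 : ℝ) 1, ∀ i,
      S.HasD (fun t => k t i) (S.Tr e w z (k t) i + src i) t) →
    ∀ t ∈ Set.Icc (0 : ℝ) 1, S.N s (k t) ≤ C * (S.N s (k 0) + S.N (s + 1) w) := by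
  -- general consequence of the energy inequality
  have main : ∀ (s : ℕ) (L : ℝ), 0 ≤ L → ∃ C : ℝ, 0 ≤ C ∧
      ∀ (w : μ → A) (z : ι → ι → A) (src : ι → A) (k : ℝ → ι → A),
      (∀ s i j, S.n s (z i j) ≤ Cz s * S.N (s + 1) w) →
      (∀ s i, S.n s (src i) ≤ Cz s * S.N (s + 1) w) →
      S.N (2 * S.D + 1) w ≤ 1 →
      (∀ t ∈ Set.Icc (0 : ℝ) 1, S.N (s + 1) w * S.N S.D (k t) ≤
        L * (S.N (s + 1) w + S.N s (k t))) →
      (∀ t ∈ Set.Icc (0 : ℝ) 1, ∀ i,
        S.HasD (fun t => k t i) (S.Tr e w z (k t) i + src i) t) →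
      ∀ t ∈ Set.Icc (0 : ℝ) 1, S.N s (k t) ≤ C * (S.N s (k 0) + S.N (s + 1) w) := by
    intro s L hL
    obtain ⟨C, hC, h⟩ := S.energy_ineq (ι := ι) e s
    set c1 : ℝ := Cz s + 1 with hc1
    set c2 : ℝ := Cz (2 * S.D) + 1 with hc2
    have hc1' : 0 ≤ c1 := by have := hCz s; positivity
    have hc2' : 0 ≤ c2 := by have := hCz (2 * S.D); positivity
    set c3 : ℝ := c1 * L + c2 + c1 with hc3
    have hc3' : 0 ≤ c3 := by positivity
    -- F' ≤ C N (c1 L (W + N) + c2 N + c1 W) ≤ C c3 N (N + W) ≤ 2 C c3 (N^2 + W^2)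
    set K : ℝ := 2 * C * c3 with hK
    have hK0 : 0 ≤ K := by positivity
    refine ⟨√(Real.exp K * (1 + K)), Real.sqrt_nonneg _, fun w z src k hz hs hw hkD hk t ht => ?_⟩
    set W := S.N (s + 1) w with hW
    have hW0 : 0 ≤ W := S.N_nonneg _ _
    set F : ℝ → ℝ := fun t => ∑ i, S.E s (k t i) with hF
    have hFN : ∀ t, F t = S.N s (k t) ^ 2 := fun t => (S.N_sq s (k t)).symm
    have hFd : ∀ t ∈ Set.Icc (0 : ℝ) 1,
        HasDerivAt F (∑ i, 2 * S.B s (k t i) (S.Tr e w z (k t) i + src i)) t := by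
      intro t ht
      have := HasDerivAt.fun_sum (u := Finset.univ) fun i (_ : i ∈ Finset.univ) =>
        (hk t ht i).energy s
      exact this
    have hbd : ∀ t ∈ Set.Icc (0 : ℝ) 1,
        ∑ i, 2 * S.B s (k t i) (S.Tr e w z (k t) i + src i) ≤ K * F t + K * W ^ 2 := by
      intro t ht
      have hN0 := S.N_nonneg s (k t)
      have hD0 := S.N_nonneg S.D (k t)
      refine (h w z src (k t) (c1 * W) c2 ?_ ?_ ?_ ?_ ?_).trans ?_
      · intro i j
        refine (hz s i j).trans ?_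
        rw [hc1]; nlinarith
      · intro i j
        refine (hz (2 * S.D) i j).trans ?_
        have := hCz (2 * S.D)
        rw [hc2]; nlinarith
      · intro i
        refine (hs s i).trans ?_
        rw [hc1]; nlinarith
      · have := hCz s
        rw [hc1]; nlinarith
      · have := hCz (2 * S.D)
        rw [hc2]; linarith
      · rw [hFN, hK]
        have h1 := hkD t ht
        have h2 : c1 * W * S.N S.D (k t) + c2 * S.N s (k t) + c1 * W
            ≤ c3 * (S.N s (k t) + W) := by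
          rw [hc3]
          have e1 : c1 * W * S.N S.D (k t) ≤ c1 * (L * (W + S.N s (k t))) := by
            rw [mul_assoc]; gcongr
          have e2 : 0 ≤ c1 * S.N s (k t) := by positivity
          have e3 : 0 ≤ c2 * W := by positivity
          nlinarith
        calc C * (S.N s (k t) * (c1 * W * S.N S.D (k t) + c2 * S.N s (k t) + c1 * W))
            ≤ C * (S.N s (k t) * (c3 * (S.N s (k t) + W))) := by gcongr
          _ = C * c3 * (S.N s (k t) ^ 2 + S.N s (k t) * W) := by ring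
          _ ≤ C * c3 * (2 * S.N s (k t) ^ 2 + 2 * W ^ 2) := by
            refine mul_le_mul_of_nonneg_left ?_ (by positivity)
            nlinarith [sq_nonneg (S.N s (k t) - W), sq_nonneg (S.N s (k t)), sq_nonneg W]
          _ = 2 * C * c3 * S.N s (k t) ^ 2 + 2 * C * c3 * W ^ 2 := by ring
    have hF0 : 0 ≤ F 0 := by rw [hFN]; positivity
    have := gronwall_simple K (K * W ^ 2) hK0 (by positivity) F _ hFd hbd t ht hF0
    rw [hFN, hFN] at this
    have hN0 := S.N_nonneg s (k 0)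
    refine abs_le_of_sq_le_sq' ?_ (by positivity) |>.2
    rw [mul_pow, Real.sq_sqrt (by positivity)]
    refine this.trans ?_
    rw [mul_assoc (Real.exp K) (1 + K)]
    refine mul_le_mul_of_nonneg_left ?_ (Real.exp_pos K).le
    nlinarith [mul_nonneg hN0 hW0, mul_nonneg hK0 (mul_nonneg hN0 hW0),
      mul_nonneg hK0 (sq_nonneg (S.N s (k 0))), sq_nonneg W]
  -- first the case s = D
  obtain ⟨C0, hC0, h0⟩ := main S.D 1 zero_le_one
  obtain ⟨C1, hC1, h1⟩ := main s (C0 * 2) (by positivity)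
  refine ⟨C1, hC1, fun w z src k hz hs hw hk0 hk => ?_⟩
  have hWD : S.N (S.D + 1) w ≤ 1 := (S.N_mono (by omega) w).trans hw
  have hD : ∀ t ∈ Set.Icc (0 : ℝ) 1, S.N S.D (k t) ≤ C0 * 2 := by
    intro t ht
    refine (h0 w z src k hz hs hw ?_ hk t ht).trans ?_
    · intro t _
      have := S.N_nonneg (S.D + 1) w
      have := S.N_nonneg S.D (k t)
      nlinarith
    · have := S.N_nonneg (S.D + 1) w
      have := S.N_nonneg S.D (k 0)
      gcongr
      linarith
  refine h1 w z src k hz hs hw ?_ hk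
  intro t ht
  have e1 := S.N_nonneg (s + 1) w
  have e2 := S.N_nonneg s (k t)
  have e3 := hD t ht
  have e4 := S.N_nonneg S.D (k t)
  calc S.N (s + 1) w * S.N S.D (k t) ≤ S.N (s + 1) w * (C0 * 2) := by gcongr
    _ ≤ C0 * 2 * (S.N (s + 1) w + S.N s (k t)) := by nlinarith [mul_nonneg hC0 e2]

/-- tame bound of the transport operator -/
theorem N_Tr_le (s : ℕ) (Cz : ℕ → ℝ) (hCz : ∀ s, 0 ≤ Cz s) : ∃ C : ℝ, 0 ≤ C ∧
    ∀ (w : μ → A) (z : ι → ι → A) (v : ι → A),
    (∀ s i j, S.n s (z i j) ≤ Cz s * S.N (s + 1) w) →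
    S.N s (S.Tr e w z v) ≤
      C * (S.N (s + 1) w * S.N (S.D + 1) v + S.N (2 * S.D + 1) w * S.N (s + 1) v) := by
  obtain ⟨C2, hC2, h2⟩ := S.n_mul_le s
  refine ⟨Fintype.card ι * (Fintype.card μ * C2 +
    Fintype.card ι * (C2 * (Cz s + Cz (2 * S.D)))), by
      have := hCz s
      have := hCz (2 * S.D)
      positivity, fun w z v hz => ?_⟩
  have hs0 := hCz s
  have h2D := hCz (2 * S.D)
  have w1 := S.N_nonneg (s + 1) w
  have w2 := S.N_nonneg (2 * S.D + 1) w
  have v1 := S.N_nonneg (S.D + 1) v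
  have v2 := S.N_nonneg (s + 1) v
  set Q := S.N (s + 1) w * S.N (S.D + 1) v + S.N (2 * S.D + 1) w * S.N (s + 1) v with hQ
  have hQ0 : 0 ≤ Q := by positivity
  have hi : ∀ i, S.n s (S.Tr e w z v i)
      ≤ (Fintype.card μ * C2 + Fintype.card ι * (C2 * (Cz s + Cz (2 * S.D)))) * Q := by
    intro i
    unfold Tr
    refine (S.n_add_le _ _ _).trans ?_
    have t1 : S.n s (∑ m, w m * S.X (e m) (v i)) ≤ ∑ _m : μ, C2 * Q := by
      refine (S.n_sum_le _ _ _).trans (Finset.sum_le_sum fun m _ => ?_)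
      refine (h2 _ _).trans ?_
      have g1 := (S.n_le_N s w m).trans (S.N_mono (by omega : s ≤ s + 1) w)
      have g2 := (S.n_le_N (2 * S.D) w m).trans (S.N_mono (by omega : 2 * S.D ≤ 2 * S.D + 1) w)
      have g3 := (S.n_X_le S.D (e m) (v i)).trans (S.n_le_N (S.D + 1) v i)
      have g4 := (S.n_X_le s (e m) (v i)).trans (S.n_le_N (s + 1) v i)
      have g5 := S.n_nonneg S.D (S.X (e m) (v i))
      have g6 := S.n_nonneg s (S.X (e m) (v i))
      rw [hQ]
      gcongr
    have t2 : S.n s (∑ j, z i j * v j) ≤ ∑ _j : ι, C2 * (Cz s + Cz (2 * S.D)) * Q := by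
      refine (S.n_sum_le _ _ _).trans (Finset.sum_le_sum fun j _ => ?_)
      refine (h2 _ _).trans ?_
      have g1 := hz s i j
      have g2 := hz (2 * S.D) i j
      have g3 := (S.n_le_N S.D v j).trans (S.N_mono (by omega : S.D ≤ S.D + 1) v)
      have g4 := (S.n_le_N s v j).trans (S.N_mono (by omega : s ≤ s + 1) v)
      have g5 := S.n_nonneg S.D (v j)
      have g6 := S.n_nonneg s (v j)
      rw [mul_assoc]
      gcongr
      calc S.n s (z i j) * S.n S.D (v j) + S.n (2 * S.D) (z i j) * S.n s (v j)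
          ≤ (Cz s * S.N (s + 1) w) * S.N (S.D + 1) v
            + (Cz (2 * S.D) * S.N (2 * S.D + 1) w) * S.N (s + 1) v := by
            gcongr
        _ ≤ (Cz s + Cz (2 * S.D)) * Q := by
            rw [hQ]
            have e1 : 0 ≤ S.N (s + 1) w * S.N (S.D + 1) v := by positivity
            have e2 : 0 ≤ S.N (2 * S.D + 1) w * S.N (s + 1) v := by positivity
            nlinarith [mul_nonneg hs0 e2, mul_nonneg h2D e1]
    rw [Finset.sum_const, Finset.card_univ, nsmul_eq_mul] at t1 t2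
    linarith
  calc S.N s (S.Tr e w z v) ≤ ∑ i, S.n s (S.Tr e w z v i) := S.N_le_sum _ _
    _ ≤ ∑ _i : ι, (Fintype.card μ * C2 + Fintype.card ι * (C2 * (Cz s + Cz (2 * S.D)))) * Q :=
      Finset.sum_le_sum fun i _ => hi i
    _ = _ := by
      rw [Finset.sum_const, Finset.card_univ, nsmul_eq_mul]
      ring

/-- **quadratic error**: the solution at time one is `k 0 + src` up to a quadratic term -/
theorem transport_quadratic (s : ℕ) (Cz : ℕ → ℝ) (hCz : ∀ s, 0 ≤ Cz s) : ∃ C : ℝ, 0 ≤ C ∧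
    ∀ (w : μ → A) (z : ι → ι → A) (src : ι → A) (k : ℝ → ι → A),
    (∀ s i j, S.n s (z i j) ≤ Cz s * S.N (s + 1) w) →
    (∀ s i, S.n s (src i) ≤ Cz s * S.N (s + 1) w) →
    S.N (2 * S.D + 1) w ≤ 1 → S.N S.D (k 0) ≤ 1 →
    (∀ t ∈ Set.Icc (0 : ℝ) 1, ∀ i,
      S.HasD (fun t => k t i) (S.Tr e w z (k t) i + src i) t) →
    S.N s (fun i => k 1 i - k 0 i - src i) ≤
      C * (S.N (s + 1) w * (S.N (S.D + 1) (k 0) + S.N (S.D + 2) w)
        + S.N (2 * S.D + 1) w * (S.N (s + 1) (k 0) + S.N (s + 2) w)) := by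
  obtain ⟨C1, hC1, h1⟩ := S.transport_tame (ι := ι) e (s + 1) Cz hCz
  obtain ⟨C2, hC2, h2⟩ := S.transport_tame (ι := ι) e (S.D + 1) Cz hCz
  obtain ⟨C3, hC3, h3⟩ := S.N_Tr_le (ι := ι) e s Cz hCz
  refine ⟨√(Real.exp 1) * (C3 * (C1 + C2)), by positivity,
    fun w z src k hz hs hw hk0 hk => ?_⟩
  have w1 := S.N_nonneg (s + 1) w
  have w2 := S.N_nonneg (2 * S.D + 1) w
  have w3 := S.N_nonneg (S.D + 2) w
  have w4 := S.N_nonneg (s + 2) w
  have k1 := S.N_nonneg (S.D + 1) (k 0)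
  have k2 := S.N_nonneg (s + 1) (k 0)
  set Q := S.N (s + 1) w * (S.N (S.D + 1) (k 0) + S.N (S.D + 2) w)
        + S.N (2 * S.D + 1) w * (S.N (s + 1) (k 0) + S.N (s + 2) w) with hQ
  have hQ0 : 0 ≤ Q := by positivity
  set q : ℝ := C3 * (C1 + C2) * Q with hq
  have hq0 : 0 ≤ q := by positivity
  have hqt : ∀ t ∈ Set.Icc (0 : ℝ) 1, S.N s (S.Tr e w z (k t)) ≤ q := by
    intro t ht
    refine (h3 w z (k t) hz).trans ?_
    have e1 := h1 w z src k hz hs hw hk0 hk t ht
    have e2 := h2 w z src k hz hs hw hk0 hk t ht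
    rw [hq, mul_assoc]
    gcongr
    have p1 : 0 ≤ S.N (s + 1) w * (S.N (S.D + 1) (k 0) + S.N (S.D + 2) w) := by positivity
    have p2 : 0 ≤ S.N (2 * S.D + 1) w * (S.N (s + 1) (k 0) + S.N (s + 2) w) := by positivity
    calc S.N (s + 1) w * S.N (S.D + 1) (k t) + S.N (2 * S.D + 1) w * S.N (s + 1) (k t)
        ≤ S.N (s + 1) w * (C2 * (S.N (S.D + 1) (k 0) + S.N (S.D + 1 + 1) w))
          + S.N (2 * S.D + 1) w * (C1 * (S.N (s + 1) (k 0) + S.N (s + 1 + 1) w)) := by gcongr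
      _ = C2 * (S.N (s + 1) w * (S.N (S.D + 1) (k 0) + S.N (S.D + 2) w))
          + C1 * (S.N (2 * S.D + 1) w * (S.N (s + 1) (k 0) + S.N (s + 2) w)) := by ring
      _ ≤ (C1 + C2) * Q := by
        rw [hQ]
        nlinarith [mul_nonneg hC1 p1, mul_nonneg hC2 p2]
  -- the difference
  set v : ℝ → ι → A := fun t i => k t i - k 0 i - t • src i with hv
  have hvd : ∀ t ∈ Set.Icc (0 : ℝ) 1, ∀ i, S.HasD (fun t => v t i) (S.Tr e w z (k t) i) t := by
    intro t ht i
    have := ((hk t ht i).sub (HasD.const (S := S) (k 0 i) t)).sub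
      (HasD.smul_const (S := S) (src i) t)
    simpa using this
  set F : ℝ → ℝ := fun t => ∑ i, S.E s (v t i) with hF
  have hFN : ∀ t, F t = S.N s (v t) ^ 2 := fun t => (S.N_sq s (v t)).symm
  have hFd : ∀ t ∈ Set.Icc (0 : ℝ) 1,
      HasDerivAt F (∑ i, 2 * S.B s (v t i) (S.Tr e w z (k t) i)) t := by
    intro t ht
    have := HasDerivAt.fun_sum (u := Finset.univ) fun i (_ : i ∈ Finset.univ) =>
      (hvd t ht i).energy s
    exact this
  have hbd : ∀ t ∈ Set.Icc (0 : ℝ) 1,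
      ∑ i, 2 * S.B s (v t i) (S.Tr e w z (k t) i) ≤ 1 * F t + q ^ 2 := by
    intro t ht
    have hi : ∀ i, 2 * S.B s (v t i) (S.Tr e w z (k t) i)
        ≤ S.E s (v t i) + S.E s (S.Tr e w z (k t) i) := by
      intro i
      have h1 := (le_abs_self _).trans (S.abs_B_le s (v t i) (S.Tr e w z (k t) i))
      rw [← S.n_sq, ← S.n_sq]
      nlinarith [sq_nonneg (S.n s (v t i) - S.n s (S.Tr e w z (k t) i))]
    calc ∑ i, 2 * S.B s (v t i) (S.Tr e w z (k t) i)
        ≤ ∑ i, (S.E s (v t i) + S.E s (S.Tr e w z (k t) i)) :=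
          Finset.sum_le_sum fun i _ => hi i
      _ = F t + S.N s (S.Tr e w z (k t)) ^ 2 := by
          rw [Finset.sum_add_distrib, S.N_sq]
      _ ≤ 1 * F t + q ^ 2 := by
          have := hqt t ht
          have := S.N_nonneg s (S.Tr e w z (k t))
          rw [one_mul]
          gcongr
  have hv0 : F 0 = 0 := by
    rw [hF]
    simp only [hv]
    refine Finset.sum_eq_zero fun i _ => ?_
    rw [sub_self, zero_sub, zero_smul, neg_zero]
    exact S.B_zero_left s 0
  have h1' : (1 : ℝ) ∈ Set.Icc (0 : ℝ) 1 := ⟨zero_le_one, le_rfl⟩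
  have := gronwall_simple 1 (q ^ 2) zero_le_one (by positivity) F _ hFd hbd 1 h1' hv0.ge
  rw [hFN, hv0, zero_add] at this
  have hfin : S.N s (v 1) ≤ √(Real.exp 1) * q := by
    refine abs_le_of_sq_le_sq' ?_ (by positivity) |>.2
    rw [mul_pow, Real.sq_sqrt (by positivity)]
    exact this
  have e1 : v 1 = fun i => k 1 i - k 0 i - src i := by
    funext i
    simp only [hv, one_smul]
  rw [e1] at hfin
  refine hfin.trans (le_of_eq ?_)
  rw [hq]
  ring

end Cal

end Vale.Agent.P207.H832
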