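import Vale.Agent.P207.H832.StepAll

/-!
# P207 / H832: the gauge step with an explicit order in terms of a given Sobolev order
-/

open MeasureTheory Filter Topology Asymptotics

noncomputable section

set_option linter.unusedSectionVars false

namespace Vale.Agent.P207.H832

open H395 H571

section Abs

variable {ι : Type} [Fintype ι] {N : Type} [TopologicalSpace N] [CompactSpace N]
  [MeasurableSpace N] {μ : Measure N}
variable [BorelSpace N] [IsFiniteMeasure μ] {ν : Type} [Fintype ν] [DecidableEq ν]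
  (S : NSys ι N μ) (hS : S.Loc) (e : ν → ι)

/-- the Sobolev inequality of order `d` -/
def SobD (d : ℕ) : Prop := ∃ C : ℝ, 0 ≤ C ∧ ∀ u : S.A,
  ‖(u : C(N, ℝ))‖ ^ 2 ≤ C ^ 2 * BF (XS S) (intL S) d u u

/-- the Sobolev calculus with a given Sobolev order -/
def calD {d : ℕ} (hd : SobD S d) : Cal S.A ι :=
  { cal S hS with
    D := d
    CS := hd.choose
    CS_nonneg := hd.choose_spec.1
    sob := hd.choose_spec.2 }

theorem transport_tame_d {d : ℕ} (hd : SobD S d) {κ' : Type} [Fintype κ'] (s : ℕ) (Cz : ℕ → ℝ)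
    (hCz : ∀ s, 0 ≤ Cz s) : ∃ C : ℝ, 0 ≤ C ∧
    ∀ (w : ν → S.A) (z : κ' → κ' → S.A) (src : κ' → S.A) (k : ℝ → κ' → S.A),
    (∀ s i j, (cal S hS).n s (z i j) ≤ Cz s * (cal S hS).N (s + 1) w) →
    (∀ s i, (cal S hS).n s (src i) ≤ Cz s * (cal S hS).N (s + 1) w) →
    (cal S hS).N (2 * d + 1) w ≤ 1 → (cal S hS).N d (k 0) ≤ 1 →
    (∀ t ∈ Set.Icc (0 : ℝ) 1, ∀ i,
      (cal S hS).HasD (fun t => k t i) ((cal S hS).Tr e w z (k t) i + src i) t) →
    ∀ t ∈ Set.Icc (0 : ℝ) 1, (cal S hS).N s (k t) ≤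
      C * ((cal S hS).N s (k 0) + (cal S hS).N (s + 1) w) :=
  (calD S hS hd).transport_tame (ι := κ') e s Cz hCz

theorem transport_quadratic_d {d : ℕ} (hd : SobD S d) {κ' : Type} [Fintype κ'] (s : ℕ)
    (Cz : ℕ → ℝ) (hCz : ∀ s, 0 ≤ Cz s) : ∃ C : ℝ, 0 ≤ C ∧
    ∀ (w : ν → S.A) (z : κ' → κ' → S.A) (src : κ' → S.A) (k : ℝ → κ' → S.A),
    (∀ s i j, (cal S hS).n s (z i j) ≤ Cz s * (cal S hS).N (s + 1) w) →
    (∀ s i, (cal S hS).n s (src i) ≤ Cz s * (cal S hS).N (s + 1) w) →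
    (cal S hS).N (2 * d + 1) w ≤ 1 → (cal S hS).N d (k 0) ≤ 1 →
    (∀ t ∈ Set.Icc (0 : ℝ) 1, ∀ i,
      (cal S hS).HasD (fun t => k t i) ((cal S hS).Tr e w z (k t) i + src i) t) →
    (cal S hS).N s (fun i => k 1 i - k 0 i - src i) ≤
      C * ((cal S hS).N (s + 1) w * ((cal S hS).N (d + 1) (k 0) + (cal S hS).N (d + 2) w)
        + (cal S hS).N (2 * d + 1) w * ((cal S hS).N (s + 1) (k 0) + (cal S hS).N (s + 2) w)) :=
  (calD S hS hd).transport_quadratic (ι := κ') e s Cz hCz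

/-- **one Newton step**: for the pull-back `k 1` of `k 0` under the flow of a gauge field `w` -/
theorem newton_step_tensor_d {d : ℕ} (hd : SobD S d) (r0 : ℕ) (Cg : ℕ → ℝ) (hCg : ∀ s, 0 ≤ Cg s) (r : ℕ)
    (hr : 2 * d + r0 + 3 ≤ r) :
    ∃ C η : ℝ, 1 ≤ C ∧ 0 < η ∧ ∀ (w : ν → S.A) (k : ℝ → ν → ν → S.A),
      (∀ t ∈ Set.Icc (0 : ℝ) 1, ∀ i j, (cal S hS).HasD (fun t => k t i j)
        (lieT S e w (k t) i j + lie S e w i j) t) →
      (∀ s, (cal S hS).N (s + 3) w ≤ Cg s * N2 S hS (s + 2) (k 0)) →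
      (∀ j, dv S e (fun i j => k 0 i j + lie S e w i j) j = 0) →
      N2 S hS r (k 0) ≤ η →
      N2 S hS (8 * r) (k 1) ≤ C * N2 S hS (8 * r) (k 0) ∧
      N2 S hS 0 (k 1) ≤ C * N2 S hS r (k 0) ∧
      (cal S hS).N r0 (dv S e (k 1)) ≤ C * N2 S hS r (k 0) ^ 2 := by
  set Q := cal S hS with hQ
  obtain ⟨C1, hC1, h1⟩ := transport_tame_d S hS e hd (κ' := ν × ν) (8 * r) (fun _ => 2) (fun _ => by norm_num)
  obtain ⟨C2, hC2, h2⟩ := transport_tame_d S hS e hd (κ' := ν × ν) r (fun _ => 2) (fun _ => by norm_num)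
  obtain ⟨C3, hC3, h3⟩ := transport_quadratic_d S hS e hd (κ' := ν × ν) (r0 + 1) (fun _ => 2)
    (fun _ => by norm_num)
  -- constants
  set G : ℝ := Cg (8 * r - 2) + Cg (r - 2) + Cg (2 * d) + Cg d + Cg r0 + Cg (r0 + 1)
    + 1 with hG
  have g1 := hCg (8 * r - 2)
  have g2 := hCg (r - 2)
  have g3 := hCg (2 * d)
  have g4 := hCg d
  have g5 := hCg r0
  have g6 := hCg (r0 + 1)
  have hG1 : 1 ≤ G := by rw [hG]; linarith
  set C : ℝ := 1 + C1 * (1 + G) + C2 * (1 + G) + (Fintype.card ν : ℝ) ^ 2 * C3 * (2 * G * (1 + G))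
    with hC
  have hpos1 : 0 ≤ C1 * (1 + G) := by positivity
  have hpos2 : 0 ≤ C2 * (1 + G) := by positivity
  have hpos3 : 0 ≤ (Fintype.card ν : ℝ) ^ 2 * C3 * (2 * G * (1 + G)) := by positivity
  refine ⟨C, 1 / G, by rw [hC]; linarith, by positivity, fun w k hk hg hdiv hη => ?_⟩
  set E := N2 S hS r (k 0) with hE
  have hE0 : 0 ≤ E := N2_nonneg S hS r (k 0)
  have hE1 : E ≤ 1 := hη.trans (by rw [div_le_one (by linarith)]; exact hG1)
  have hGE : G * E ≤ 1 := by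
    calc G * E ≤ G * (1 / G) := by gcongr
      _ = 1 := by field_simp
  -- w bounds
  have hwE : ∀ s t, s + 2 ≤ r → Cg s ≤ G → t ≤ s + 3 → Q.N t w ≤ G * E := by
    intro s t hs hCs ht
    refine (Q.N_mono ht w).trans ((hg s).trans ?_)
    have := N2_mono S hS hs (k 0)
    have := N2_nonneg S hS (s + 2) (k 0)
    have := hCg s
    gcongr
  have hw1 : Q.N (2 * d + 1) w ≤ G * E :=
    hwE (2 * d) _ (by omega) (by rw [hG]; linarith) (by omega)
  have hw1' : Q.N (2 * d + 1) w ≤ 1 := hw1.trans hGE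
  have hk0 : Q.N d (fun p : ν × ν => k 0 p.1 p.2) ≤ 1 :=
    (N2_mono S hS (by omega : d ≤ r) (k 0)).trans hE1
  have hz : ∀ s p q, Q.n s (zc S e w p q) ≤ 2 * Q.N (s + 1) w := fun s p q => n_zc_le S hS e s w p q
  have hs : ∀ s (p : ν × ν), Q.n s (lie S e w p.1 p.2) ≤ 2 * Q.N (s + 1) w := fun s p =>
    n_lie_le S hS e s w p.1 p.2
  have hev : ∀ t ∈ Set.Icc (0 : ℝ) 1, ∀ p : ν × ν, Q.HasD (fun t => k t p.1 p.2)
      (Q.Tr e w (zc S e w) (fun p : ν × ν => k t p.1 p.2) p + lie S e w p.1 p.2) t := by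
    intro t ht p
    rw [hQ, Tr_eq]
    exact hk t ht p.1 p.2
  have mem1 : (1 : ℝ) ∈ Set.Icc (0 : ℝ) 1 := ⟨zero_le_one, le_rfl⟩
  refine ⟨?_, ?_, ?_⟩
  · have := h1 w (zc S e w) (fun p => lie S e w p.1 p.2) (fun t p => k t p.1 p.2) hz hs hw1' hk0
      hev 1 mem1
    change N2 S hS (8 * r) (k 1) ≤ _ at this
    have hb := N2_nonneg S hS (8 * r) (k 0)
    calc N2 S hS (8 * r) (k 1)
        ≤ C1 * (N2 S hS (8 * r) (k 0) + Q.N (8 * r + 1) w) := this
      _ ≤ C1 * (N2 S hS (8 * r) (k 0) + G * N2 S hS (8 * r) (k 0)) := by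
        have h5 : Q.N (8 * r + 1) w ≤ G * N2 S hS (8 * r) (k 0) := by
          have h6 := hg (8 * r - 2)
          rw [show 8 * r - 2 + 3 = 8 * r + 1 by omega, show 8 * r - 2 + 2 = 8 * r by omega] at h6
          refine h6.trans ?_
          gcongr
          rw [hG]; linarith
        gcongr
      _ = C1 * (1 + G) * N2 S hS (8 * r) (k 0) := by ring
      _ ≤ C * N2 S hS (8 * r) (k 0) := by
        gcongr
        rw [hC]; linarith
  · have := h2 w (zc S e w) (fun p => lie S e w p.1 p.2) (fun t p => k t p.1 p.2) hz hs hw1' hk0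
      hev 1 mem1
    change N2 S hS r (k 1) ≤ _ at this
    calc N2 S hS 0 (k 1) ≤ N2 S hS r (k 1) := N2_mono S hS (Nat.zero_le _) _
      _ ≤ C2 * (E + Q.N (r + 1) w) := this
      _ ≤ C2 * (E + G * E) := by
        have h5 : Q.N (r + 1) w ≤ G * E := 
          hwE (r - 2) _ (by omega) (by rw [hG]; linarith) (by omega)
        gcongr
      _ = C2 * (1 + G) * E := by ring
      _ ≤ C * E := by
        gcongr
        rw [hC]; linarith
  · have := h3 w (zc S e w) (fun p => lie S e w p.1 p.2) (fun t p => k t p.1 p.2) hz hs hw1' hk0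
      hev
    -- the divergence only sees the quadratic error
    have hdv : dv S e (k 1) = dv S e (fun i j => k 1 i j - k 0 i j - lie S e w i j) := by
      funext j
      have e1 : dv S e (fun i j => k 1 i j - k 0 i j - lie S e w i j) j
          = dv S e (k 1) j - dv S e (fun i j => k 0 i j + lie S e w i j) j := by
        rw [← dv_sub]
        congr 1
        funext i j
        abel
      rw [e1, hdiv j, sub_zero]
    rw [hdv]
    refine (N_dv_le S hS e r0 _).trans ?_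
    have h4 : N2 S hS (r0 + 1) (fun i j => k 1 i j - k 0 i j - lie S e w i j)
        ≤ C3 * (2 * G * (1 + G) * E ^ 2) := by
      refine le_trans this ?_
      refine mul_le_mul_of_nonneg_left ?_ hC3
      have a1 : Q.N (r0 + 1 + 1) w ≤ G * E := 
        hwE r0 _ (by omega) (by rw [hG]; linarith) (by omega)
      have a2 : Q.N (d + 1) (fun p : ν × ν => k 0 p.1 p.2) ≤ E :=
        N2_mono S hS (by omega : d + 1 ≤ r) (k 0)
      have a3 : Q.N (d + 2) w ≤ G * E := 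
        hwE d _ (by omega) (by rw [hG]; linarith) (by omega)
      have a4 : Q.N (r0 + 1 + 1) (fun p : ν × ν => k 0 p.1 p.2) ≤ E :=
        N2_mono S hS (by omega : r0 + 1 + 1 ≤ r) (k 0)
      have a5 : Q.N (r0 + 1 + 2) w ≤ G * E := 
        hwE (r0 + 1) _ (by omega) (by rw [hG]; linarith) (by omega)
      have b1 := Q.N_nonneg (r0 + 1 + 1) w
      have b2 := Q.N_nonneg (d + 1) (fun p : ν × ν => k 0 p.1 p.2)
      have b3 := Q.N_nonneg (d + 2) w
      have b4 := Q.N_nonneg (r0 + 1 + 1) (fun p : ν × ν => k 0 p.1 p.2)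
      have b5 := Q.N_nonneg (r0 + 1 + 2) w
      have b6 := Q.N_nonneg (2 * d + 1) w
      calc Q.N (r0 + 1 + 1) w * (Q.N (d + 1) (fun p : ν × ν => k 0 p.1 p.2) + Q.N (d + 2) w)
          + Q.N (2 * d + 1) w * (Q.N (r0 + 1 + 1) (fun p : ν × ν => k 0 p.1 p.2)
            + Q.N (r0 + 1 + 2) w)
          ≤ (G * E) * (E + G * E) + (G * E) * (E + G * E) := by gcongr
        _ = 2 * G * (1 + G) * E ^ 2 := by ring
    calc (Fintype.card ν : ℝ) ^ 2 * N2 S hS (r0 + 1)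
          (fun i j => k 1 i j - k 0 i j - lie S e w i j)
        ≤ (Fintype.card ν : ℝ) ^ 2 * (C3 * (2 * G * (1 + G) * E ^ 2)) := by gcongr
      _ = (Fintype.card ν : ℝ) ^ 2 * C3 * (2 * G * (1 + G)) * E ^ 2 := by ring
      _ ≤ C * E ^ 2 := by
        gcongr
        rw [hC]; linarith

end Abs

end Vale.Agent.P207.H832
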